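import Crest.Agent.R53.Glue

/-!
Row 53: the recursion of length continuum which produces the ranked antichain of ties.
-/

set_option autoImplicit false
open Filter Set Cardinal

namespace Crest.Agent.R53

variable {F : Type} {l : Filter F} {U : Ultrafilter F}

/-- fewer than continuum many positive sets can be split simultaneously -/
def Splits (l : Filter F) : Prop :=
  ∀ S : Set (Set F), #S < 𝔠 → ∃ Y : Set F, ∀ P ∈ S, ¬ Le l P ∅ → ¬ Le l (P ∩ Y) ∅ ∧ ¬ Le l (P \ Y) ∅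

theorem Le.mem (hU : (U : Filter F) ≤ l) {A B : Set F} (h : Le l A B) (hA : A ∈ U) : B ∈ U := by
  have h1 : ∀ᶠ x in (U : Filter F), x ∈ A → x ∈ B := hU h
  have h2 : ∀ᶠ x in (U : Filter F), x ∈ A := hA
  filter_upwards [h1, h2] with x h3 h4 using h3 h4

private theorem generic (U : Ultrafilter F) (hs : Splits l) {u₀ u₁ : Set F} (h : u₀ ⊆ u₁)
    (h0 : u₀ ∉ U) (P : Set (Set F)) (hP : #P < 𝔠) :
    ∃ u, u₀ ⊆ u ∧ u ⊆ u₁ ∧ u ∉ U ∧ ∀ w ∈ P, (Le l u w → Le l u₁ w) ∧ (Le l w u → Le l w u₀) := by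
  obtain ⟨Y, hY⟩ := hs ((fun w => u₁ \ w) '' P ∪ (fun w => w \ u₀) '' P)
    ((mk_union_le _ _).trans_lt (add_lt_of_lt aleph0_le_continuum (mk_image_le.trans_lt hP)
      (mk_image_le.trans_lt hP)))
  have key : ∀ Y : Set F, Y ∉ U → (∀ Q ∈ (fun w => u₁ \ w) '' P ∪ (fun w => w \ u₀) '' P,
      ¬ Le l Q ∅ → ¬ Le l (Q ∩ Y) ∅ ∧ ¬ Le l (Q \ Y) ∅) → ∃ u, u₀ ⊆ u ∧ u ⊆ u₁ ∧ u ∉ U ∧
      ∀ w ∈ P, (Le l u w → Le l u₁ w) ∧ (Le l w u → Le l w u₀) := by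
    intro Y hYU hY
    refine ⟨u₀ ∪ u₁ ∩ Y, subset_union_left, union_subset h inter_subset_left, fun hu => ?_,
      fun w hw => ⟨fun h1 => ?_, fun h1 => ?_⟩⟩
    · rcases Ultrafilter.union_mem_iff.1 hu with h1 | h1
      · exact h0 h1
      · exact hYU (mem_of_superset h1 inter_subset_right)
    · by_contra h2
      refine (hY (u₁ \ w) (Or.inl ⟨w, hw, rfl⟩) fun h3 => h2 ?_).1 ?_
      · filter_upwards [h3] with x hx hx1
        by_contra hx2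
        exact hx ⟨hx1, hx2⟩
      · filter_upwards [h1] with x hx hx1 using hx1.1.2 (hx (Or.inr ⟨hx1.1.1, hx1.2⟩))
    · by_contra h2
      refine (hY (w \ u₀) (Or.inr ⟨w, hw, rfl⟩) fun h3 => h2 ?_).2 ?_
      · filter_upwards [h3] with x hx hx1
        by_contra hx2
        exact hx ⟨hx1, hx2⟩
      · filter_upwards [h1] with x hx hx1 using (hx hx1.1.1).elim hx1.1.2 fun h => hx1.2 h.2
  by_cases hYU : Y ∈ U
  · refine key Yᶜ (Ultrafilter.compl_notMem_iff.2 hYU) fun Q hQ h1 => ?_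
    rw [← sdiff_eq, sdiff_compl]
    exact (hY Q hQ h1).symm
  · exact key Y hYU hY

section Rec

variable {W : Type} [LinearOrder W]

private def Rel (l : Filter F) (U : Ultrafilter F) (t t' : Set F × Set F × W) : Prop :=
  (t.1 ∉ U ∧ t.2.1 ∉ U) ∧ (Le l t.1 t'.1 → Le l t'.2.1 t.2.1 → t = t') ∧
    (Le l t'.1 t.2.1 → t'.2.2 < t.2.2)

private def Inv (l : Filter F) (U : Ultrafilter F) (T : Set (Set F × Set F × W)) : Prop :=
  ∀ t ∈ T, ∀ t' ∈ T, Rel l U t t'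

private def Solved (l : Filter F) (U : Ultrafilter F) (T : Set (Set F × Set F × W))
    (k : Set F × Set F × Set F × Set F) : Prop :=
  k.1 ⊆ k.2.1 → k.2.2.1 ⊆ k.2.2.2 → k.1 ∉ U → k.2.2.1 ∉ U →
    (∃ t ∈ T, Le l t.1 k.1 ∧ Le l k.2.2.2 t.2.1) ∨ (∃ t ∈ T, Le l k.2.1 t.1 ∧ Le l t.2.1 k.2.2.1) ∨
      ∃ t ∈ T, Le l k.1 t.1 ∧ Le l t.1 k.2.1 ∧ Le l k.2.2.1 t.2.1 ∧ Le l t.2.1 k.2.2.2

omit [LinearOrder W] in
private theorem Solved.mono {T T' : Set (Set F × Set F × W)} {k : Set F × Set F × Set F × Set F}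
    (h : Solved l U T k) (hT : T ⊆ T') : Solved l U T' k := fun a b c d =>
  (h a b c d).imp (fun ⟨t, h1, h2⟩ => ⟨t, hT h1, h2⟩)
    (Or.imp (fun ⟨t, h1, h2⟩ => ⟨t, hT h1, h2⟩) fun ⟨t, h1, h2⟩ => ⟨t, hT h1, h2⟩)

private theorem core (hs : Splits l) {T : Set (Set F × Set F × W)} (hT : #T < 𝔠)
    (hI : Inv l U T) {p₀ p₁ q₀ q₁ : Set F} (hp : p₀ ⊆ p₁) (hq : q₀ ⊆ q₁) (hp0 : p₀ ∉ U)
    (hq0 : q₀ ∉ U) (hA : ¬ ∃ t ∈ T, Le l t.1 p₀ ∧ Le l q₁ t.2.1)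
    (hB : ¬ ∃ t ∈ T, Le l p₁ t.1 ∧ Le l t.2.1 q₀) (ρ : W)
    (hin : ∀ t ∈ T, Le l p₁ t.2.1 → ρ < t.2.2) (hout : ∀ t ∈ T, Le l t.1 q₀ → t.2.2 < ρ)
    (hself : ¬ Le l p₁ q₀) :
    ∃ p q, p₀ ⊆ p ∧ p ⊆ p₁ ∧ q₀ ⊆ q ∧ q ⊆ q₁ ∧ Inv l U (insert (p, q, ρ) T) := by
  have hc : ∀ u : Set F, #(insert u ((fun t => t.1) '' T ∪ (fun t => t.2.1) '' T) : Set (Set F))
      < 𝔠 := fun u =>
    mk_insert_le.trans_lt (add_lt_of_lt aleph0_le_continuum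
      ((mk_union_le _ _).trans_lt (add_lt_of_lt aleph0_le_continuum (mk_image_le.trans_lt hT)
        (mk_image_le.trans_lt hT))) (one_lt_aleph0.trans_le aleph0_le_continuum))
  obtain ⟨p, hp1, hp2, hp3, hp4⟩ := generic U hs hp hp0 _ (hc q₀)
  obtain ⟨q, hq1, hq2, hq3, hq4⟩ := generic U hs hq hq0 _ (hc p)
  have m1 : ∀ u, ∀ t ∈ T, t.1 ∈ insert u ((fun t => t.1) '' T ∪ (fun t => t.2.1) '' T) :=
    fun u t ht => Or.inr (Or.inl ⟨t, ht, rfl⟩)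
  have m2 : ∀ u, ∀ t ∈ T, t.2.1 ∈ insert u ((fun t => t.1) '' T ∪ (fun t => t.2.1) '' T) :=
    fun u t ht => Or.inr (Or.inr ⟨t, ht, rfl⟩)
  refine ⟨p, q, hp1, hp2, hq1, hq2, ?_⟩
  rintro t (rfl | ht) t' (rfl | ht')
  · exact ⟨⟨hp3, hq3⟩, fun _ _ => rfl, fun h => absurd
      ((hp4 q₀ (mem_insert _ _)).1 ((hq4 p (mem_insert _ _)).2 h)) hself⟩
  · exact ⟨⟨hp3, hq3⟩, fun h1 h2 => absurd
      ⟨t', ht', (hp4 _ (m1 _ t' ht')).1 h1, (hq4 _ (m2 _ t' ht')).2 h2⟩ hB,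
      fun h => hout t' ht' ((hq4 _ (m1 _ t' ht')).2 h)⟩
  · exact ⟨(hI t ht t ht).1, fun h1 h2 => absurd
      ⟨t, ht, (hp4 _ (m1 _ t ht)).2 h1, (hq4 _ (m2 _ t ht)).1 h2⟩ hA,
      fun h => hin t ht ((hp4 _ (m2 _ t ht)).1 h)⟩
  · exact hI t ht t' ht'

private theorem step (hU : (U : Filter F) ≤ l) (hs : Splits l) (i : W)
    (k : Set F × Set F × Set F × Set F) (T : Set (Set F × Set F × W)) :
    ∃ N : Set (Set F × Set F × W), N.Subsingleton ∧ (#T < 𝔠 → Inv l U T → (∀ t ∈ T, t.2.2 < i) →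
      Inv l U (T ∪ N) ∧ (∀ t ∈ N, t.2.2 ≤ i) ∧ Solved l U (T ∪ N) k) := by
  obtain ⟨p₀, p₁, q₀, q₁⟩ := k
  by_cases h : #T < 𝔠 ∧ Inv l U T ∧ (∀ t ∈ T, t.2.2 < i) ∧ ¬ Solved l U T (p₀, p₁, q₀, q₁)
  swap
  · refine ⟨∅, subsingleton_empty, fun h1 h2 h3 => ?_⟩
    rw [union_empty]
    exact ⟨h2, fun _ h => h.elim, by_contra fun h4 => h ⟨h1, h2, h3, h4⟩⟩
  obtain ⟨hT, hI, hr, hS⟩ := h
  unfold Solved at hS
  simp only [Classical.not_imp, not_or] at hS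
  obtain ⟨hp, hq, hp0, hq0, hA, hB, -⟩ := hS
  have fin : ∀ p q ρ, ρ ≤ i → Inv l U (insert (p, q, ρ) T) →
      Solved l U (insert (p, q, ρ) T) (p₀, p₁, q₀, q₁) → ∃ N : Set (Set F × Set F × W),
      N.Subsingleton ∧ (#T < 𝔠 → Inv l U T → (∀ t ∈ T, t.2.2 < i) →
      Inv l U (T ∪ N) ∧ (∀ t ∈ N, t.2.2 ≤ i) ∧ Solved l U (T ∪ N) (p₀, p₁, q₀, q₁)) := by
    intro p q ρ h1 h2 h3
    refine ⟨{(p, q, ρ)}, subsingleton_singleton, fun _ _ _ => ?_⟩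
    rw [union_singleton]
    exact ⟨h2, fun t ht => by rw [mem_singleton_iff.1 ht]; exact h1, h3⟩
  by_cases h1 : p₁ ∈ U
  · obtain ⟨p, q, a, b, c, d, e⟩ := core hs hT hI hp hq hp0 hq0 hA hB i
      (fun t ht h => absurd (h.mem hU h1) (hI t ht t ht).1.2) (fun t ht _ => hr t ht)
      (fun h => hq0 (h.mem hU h1))
    exact fin p q i le_rfl e fun _ _ _ _ => Or.inr (Or.inr ⟨_, mem_insert _ _,
      Le.of_subset a, Le.of_subset b, Le.of_subset c, Le.of_subset d⟩)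
  by_cases h2 : ∃ t ∈ T, Le l t.1 p₁ ∧ Le l q₀ t.2.1
  · obtain ⟨t₂, ht₂, h3, h4⟩ := h2
    obtain ⟨p, q, a, b, c, d, e⟩ := core hs hT hI hp hq hp0 hq0 hA hB t₂.2.2
      (fun t ht h => (hI t ht t₂ ht₂).2.2 (h3.trans h))
      (fun t ht h => (hI t₂ ht₂ t ht).2.2 (h.trans h4))
      (fun h => lt_irrefl _ ((hI t₂ ht₂ t₂ ht₂).2.2 ((h3.trans h).trans h4)))
    exact fin p q _ (hr t₂ ht₂).le e fun _ _ _ _ => Or.inr (Or.inr ⟨_, mem_insert _ _,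
      Le.of_subset a, Le.of_subset b, Le.of_subset c, Le.of_subset d⟩)
  · obtain ⟨p, q, a, -, -, d, e⟩ := core hs hT hI (subset_univ p₁) (Subset.refl q₀) h1 hq0 h2
      (fun ⟨t, ht, h, _⟩ => (hI t ht t ht).1.1 (h.mem hU univ_mem)) i
      (fun t ht h => absurd (h.mem hU univ_mem) (hI t ht t ht).1.2) (fun t ht _ => hr t ht)
      (fun h => hq0 (h.mem hU univ_mem))
    exact fin p q i le_rfl e fun _ _ _ _ => Or.inr (Or.inl ⟨_, mem_insert _ _,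
      Le.of_subset a, Le.of_subset d⟩)

end Rec

theorem exists_ties [Countable F] (hU : (U : Filter F) ≤ l) (hs : Splits l) :
    ∃ (W : Type) (_ : LinearOrder W) (_ : WellFoundedLT W) (T : Set (Set F × Set F × W)),
      (∀ t ∈ T, t.1 ∉ U ∧ t.2.1 ∉ U) ∧
      (∀ t ∈ T, ∀ t' ∈ T, Le l t.1 t'.1 → Le l t'.2.1 t.2.1 → t = t') ∧
      (∀ t ∈ T, ∀ t' ∈ T, Le l t'.1 t.2.1 → t'.2.2 < t.2.2) ∧
      ∀ p₀ p₁ q₀ q₁ : Set F, p₀ ⊆ p₁ → q₀ ⊆ q₁ → p₀ ∉ U → q₀ ∉ U →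
        (∃ t ∈ T, Le l t.1 p₀ ∧ Le l q₁ t.2.1) ∨ (∃ t ∈ T, Le l p₁ t.1 ∧ Le l t.2.1 q₀) ∨
          ∃ t ∈ T, Le l p₀ t.1 ∧ Le l t.1 p₁ ∧ Le l q₀ t.2.1 ∧ Le l t.2.1 q₁ := by
  let W : Type := (𝔠 : Cardinal.{0}).ord.ToType
  have hF : #(Set F) ≤ 𝔠 := by
    rw [mk_set, ← two_power_aleph0]
    exact power_le_power_left two_ne_zero mk_le_aleph0
  have hK : #(Set F × Set F × Set F × Set F) ≤ #W := by
    rw [mk_ord_toType]
    simp only [mk_prod, lift_id]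
    calc #(Set F) * (#(Set F) * (#(Set F) * #(Set F))) ≤ 𝔠 * (𝔠 * (𝔠 * 𝔠)) := by gcongr
      _ = 𝔠 := by simp only [continuum_mul_self]
  obtain ⟨ι⟩ := (Cardinal.le_def _ _).1 hK
  let task : W → Set F × Set F × Set F × Set F := Function.invFun ι
  have htask : Function.Surjective task := Function.invFun_surjective ι.injective
  choose st hst1 hst2 using fun i : W => step hU hs i (task i)
  let N : W → Set (Set F × Set F × W) :=
    (wellFounded_lt (α := W)).fix fun i prev => st i (⋃ j, ⋃ h : j < i, prev j h)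
  have hN : ∀ i, N i = st i (⋃ j, ⋃ _ : j < i, N j) := fun i => WellFounded.fix_eq _ _ i
  have hcard : ∀ i, #(⋃ j, ⋃ _ : j < i, N j) < 𝔠 := by
    intro i
    refine (mk_biUnion_le N (Iio i)).trans_lt (mul_lt_of_lt aleph0_le_continuum
      (by simpa [W] using mk_Iio_lt i) (lt_of_le_of_lt (ciSup_le' fun j => ?_)
        (one_lt_aleph0.trans_le aleph0_le_continuum)))
    rw [mk_le_one_iff_set_subsingleton, hN]
    exact hst1 _ _
  have pairs : ∀ j j' : W, Inv l U ((⋃ k, ⋃ _ : k < max j j', N k) ∪ N (max j j')) →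
      ∀ t ∈ N j, ∀ t' ∈ N j', Rel l U t t' := by
    intro j j' h t ht t' ht'
    have hm : ∀ a ≤ max j j', N a ⊆ (⋃ k, ⋃ _ : k < max j j', N k) ∪ N (max j j') := by
      intro a ha
      rcases ha.lt_or_eq with ha | rfl
      · exact (subset_biUnion_of_mem (u := N) (s := Iio (max j j')) ha).trans subset_union_left
      · exact subset_union_right
    exact h t (hm j (le_max_left _ _) ht) t' (hm j' (le_max_right _ _) ht')
  have main : ∀ i, Inv l U ((⋃ j, ⋃ _ : j < i, N j) ∪ N i) ∧ (∀ t ∈ N i, t.2.2 ≤ i) ∧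
      Solved l U ((⋃ j, ⋃ _ : j < i, N j) ∪ N i) (task i) := by
    intro i
    induction i using WellFoundedLT.induction with
    | ind i ih =>
      have := hst2 i _ (hcard i) (fun t ht t' ht' => by
        simp only [mem_iUnion] at ht ht'
        obtain ⟨j, hj, ht⟩ := ht
        obtain ⟨j', hj', ht'⟩ := ht'
        exact pairs j j' (ih _ (max_lt hj hj')).1 t ht t' ht') (fun t ht => by
        simp only [mem_iUnion] at ht
        obtain ⟨j, hj, ht⟩ := ht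
        exact ((ih j hj).2.1 t ht).trans_lt hj)
      rwa [← hN] at this
  have hInv : Inv l U (⋃ i, N i) := fun t ht t' ht' => by
    simp only [mem_iUnion] at ht ht'
    obtain ⟨j, ht⟩ := ht
    obtain ⟨j', ht'⟩ := ht'
    exact pairs j j' (main _).1 t ht t' ht'
  refine ⟨W, inferInstance, inferInstance, ⋃ i, N i, fun t ht => (hInv t ht t ht).1,
    fun t ht t' ht' => (hInv t ht t' ht').2.1, fun t ht t' ht' => (hInv t ht t' ht').2.2,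
    fun p₀ p₁ q₀ q₁ => ?_⟩
  obtain ⟨i, hi⟩ := htask (p₀, p₁, q₀, q₁)
  have := (main i).2.2.mono (T' := ⋃ i, N i)
    (union_subset (iUnion₂_subset fun j _ => subset_iUnion N j) (subset_iUnion N i))
  rw [hi] at this
  exact this

end Crest.Agent.R53
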