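import Crest.Agent.R53.Vertex

/-!
Row 53: the double ray of bundles, and the reduction of the packing/covering clause.
-/

set_option autoImplicit false
open Filter Set

namespace Crest.Agent.R53

/-- For an identically self-dual matroid, each side of a packing/covering partition gives an
independent set. -/
theorem indep_of_pc {α : Type*} (M : Matroid α) (hE : M.E = univ) (hd : M.dual = M)
    {P C S I : Set α} (hPC : P ∪ C = univ) (hdis : Disjoint P C) (hS : S ⊆ P)
    (hcl : (M.restrict P).closure S = P) (hI : (M.contract Cᶜ).Indep I) :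
    M.Indep (I ∪ (P \ S)) := by
  have hg : ∀ A : Set α, A ⊆ M.E := fun A => hE ▸ subset_univ A
  have hC : Cᶜ = P := by
    ext x
    constructor
    · intro hx
      exact (hPC.symm ▸ mem_univ x : x ∈ P ∪ C).resolve_right hx
    · exact fun hx => disjoint_left.1 hdis hx
  rw [M.restrict_closure_eq hS (hg P)] at hcl
  have h1 : M.Indep (P \ S) := by
    rw [← hd]
    refine Matroid.Coindep.indep ?_
    rw [Matroid.coindep_iff_compl_spanning (hg _), Matroid.spanning_iff_ground_subset_closure (hg _)]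
    intro x _
    by_cases hx : x ∈ P
    · have h2 : x ∈ M.closure S := (hcl.symm ▸ hx : x ∈ M.closure S ∩ P).1
      exact M.closure_subset_closure
        (show S ⊆ M.E \ (P \ S) from fun y hy => ⟨hg _ hy, fun h => h.2 hy⟩) h2
    · exact M.subset_closure _ (hg _) ⟨hg univ (mem_univ x), fun h => hx h.1⟩
  obtain ⟨J, hJ, hPJ⟩ := h1.subset_isBasis_of_subset (sdiff_subset (t := S)) (hg P)
  rw [hC, hJ.contract_indep_iff] at hI
  exact hI.1.subset (union_subset_union_right _ hPJ)

private def ph (p : ℤ × Bool) : ℤ :=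
  if 0 ≤ p.1 then cond p.2 (2 * p.1 + 1) (2 * p.1) else cond p.2 (2 * p.1) (2 * p.1 + 1)

private theorem ph_bij : Function.Bijective ph := by
  constructor
  · rintro ⟨i, _ | _⟩ ⟨j, _ | _⟩ h <;> simp only [ph, cond_true, cond_false] at h <;>
      split_ifs at h <;> first | (exfalso; omega) | (obtain rfl : i = j := by omega); rfl
  · intro m
    by_cases h : 0 ≤ m / 2
    · rcases Int.emod_two_eq_zero_or_one m with h1 | h1
      · exact ⟨(m / 2, false), by simp only [ph, h, if_true, cond_false]; omega⟩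
      · exact ⟨(m / 2, true), by simp only [ph, h, if_true, cond_true]; omega⟩
    · rcases Int.emod_two_eq_zero_or_one m with h1 | h1
      · exact ⟨(m / 2, true), by simp only [ph, h, if_false, cond_true]; omega⟩
      · exact ⟨(m / 2, false), by simp only [ph, h, if_false, cond_false]; omega⟩

theorem exists_pair : ∃ M₀ M₁ : Matroid ℕ, M₀.E = univ ∧ M₁.E = univ ∧ M₀.dual = M₀ ∧
    M₁.dual = M₁ ∧ ∀ I₀ I₁ : Set ℕ, M₀.Indep I₀ → M₁.Indep I₁ → I₀ ∪ I₁ ≠ univ := by
  obtain ⟨N, U, hN1, hN2, hN3⟩ := exists_vertex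
  have : Infinite (ℤ × FF) := by
    have : Nonempty FF := ⟨⟨0, fun _ => true⟩⟩
    infer_instance
  obtain ⟨ψ⟩ : Nonempty (ℤ × FF ≃ ℕ) := nonempty_equiv_of_countable
  have mk : ∀ e : ℤ × Bool ≃ ℤ, ∃ M : Matroid ℕ, M.E = univ ∧ M.dual = M ∧
      ∀ I, M.Indep I → ∀ i, N.Indep {x | ψ (e (i, x.1), x.2) ∈ I} := by
    intro e
    let ε : ℤ × (Bool × FF) ≃ ℕ :=
      ((Equiv.prodAssoc ℤ Bool FF).symm.trans (e.prodCongr (Equiv.refl FF))).trans ψ
    have hpre : ∀ (I : Set ℕ) (i : ℤ),
        Prod.mk i ⁻¹' (ε.symm '' I) = {x | ψ (e (i, x.1), x.2) ∈ I} := by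
      intro I i
      rw [Equiv.image_symm_eq_preimage]
      rfl
    have hE : ((Matroid.sum' fun _ : ℤ => N).mapEquiv ε).E = univ := by
      rw [Matroid.mapEquiv_ground_eq, Matroid.sum'_ground_eq, hN1, eq_univ_iff_forall]
      intro n
      exact ⟨ε.symm n, mem_iUnion.2 ⟨(ε.symm n).1, (ε.symm n).2, mem_univ _, rfl⟩, by simp⟩
    refine ⟨(Matroid.sum' fun _ : ℤ => N).mapEquiv ε, hE, ?_, fun I hI i => ?_⟩
    · refine Matroid.ext_isBase rfl fun B _ => ?_
      rw [Matroid.dual_isBase_iff (hE ▸ subset_univ B), hE, Matroid.mapEquiv_isBase_iff,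
        Matroid.mapEquiv_isBase_iff, Matroid.sum'_isBase_iff, Matroid.sum'_isBase_iff]
      refine forall_congr' fun i => ?_
      rw [hpre, hpre]
      conv_rhs => rw [← hN2, Matroid.dual_isBase_iff (hN1 ▸ subset_univ _), hN1]
      rfl
    · rw [Matroid.mapEquiv_indep_iff, Matroid.sum'_indep_iff] at hI
      rw [← hpre]
      exact hI i
  have chain : ∀ S S' : ℤ → Set FF, (∀ i, N.Indep {x | x.2 ∈ S (ph (i, x.1))}) →
      (∀ i, N.Indep {x | x.2 ∈ S' (-ph (i, x.1))}) → (∀ m x, x ∈ S m ∨ x ∈ S' m) →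
      S 0 ∈ U → False := by
    intro S S' h1 h2 hc h0
    let A : ℕ → Set (Bool × FF) := fun k =>
      {x | x.2 ∈ (if k % 2 = 0 then S else S') (k + cond x.1 1 0)}
    refine hN3 A (fun k => ?_) (by simpa [A] using h0) fun k x => ?_
    · by_cases hk : k % 2 = 0
      · convert h1 (k / 2) using 1
        ext ⟨_ | _, x⟩
        · have : ph ((k : ℤ) / 2, false) = k := by
            simp only [ph, cond_false]; split_ifs <;> omega
          simp [A, hk, this]
        · have : ph ((k : ℤ) / 2, true) = k + 1 := by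
            simp only [ph, cond_true]; split_ifs <;> omega
          simp [A, hk, this]
      · convert h2 (-((k + 1) / 2)) using 1
        ext ⟨_ | _, x⟩
        · have : -ph (-(((k : ℤ) + 1) / 2), false) = k := by
            simp only [ph, cond_false]; split_ifs <;> omega
          simp [A, hk, this]
        · have : -ph (-(((k : ℤ) + 1) / 2), true) = k + 1 := by
            simp only [ph, cond_true]; split_ifs <;> omega
          simp [A, hk, this]
    · by_cases hk : k % 2 = 0
      · have hk' : ¬ (k + 1) % 2 = 0 := by omega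
        simpa [A, hk, hk'] using hc (k + 1) x
      · have hk' : (k + 1) % 2 = 0 := by omega
        simpa [A, hk, hk'] using (hc (k + 1) x).symm
  obtain ⟨M₀, a1, a2, a3⟩ := mk (Equiv.ofBijective ph ph_bij)
  obtain ⟨M₁, b1, b2, b3⟩ := mk ((Equiv.ofBijective ph ph_bij).trans (Equiv.neg ℤ))
  refine ⟨M₀, M₁, a1, b1, a2, b2, fun I₀ I₁ h0 h1 hc => ?_⟩
  have hc' : ∀ n, n ∈ I₀ ∨ n ∈ I₁ := fun n => (hc.symm ▸ mem_univ n : n ∈ I₀ ∪ I₁)
  by_cases hU : {x | ψ (0, x) ∈ I₀} ∈ U
  · exact chain (fun m => {x | ψ (m, x) ∈ I₀}) (fun m => {x | ψ (m, x) ∈ I₁}) (a3 I₀ h0)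
      (b3 I₁ h1) (fun m x => hc' _) hU
  · refine chain (fun m => {x | ψ (-m, x) ∈ I₁}) (fun m => {x | ψ (-m, x) ∈ I₀}) (b3 I₁ h1)
      (fun i => ?_) (fun m x => (hc' _).symm) ?_
    · simpa using a3 I₀ h0 i
    · refine mem_of_superset (Ultrafilter.compl_mem_iff_notMem.2 hU) fun x hx => ?_
      exact (hc' _).resolve_left hx

end Crest.Agent.R53
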