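import Crest.Agent.R53.Greedy

/-!
Row 53: the explicit local rule on a class modulo the sets of density zero.
-/

set_option autoImplicit false
open Filter Set

namespace Crest.Agent.R53

/-- a partition into rapidly growing finite blocks -/
structure Blocks (G : Type*) where
  blk : G → ℕ
  fib : ℕ → Finset G
  mem_fib : ∀ x m, x ∈ fib m ↔ blk x = m
  s : ℕ → ℕ
  s_pos : ∀ m, 0 < s m
  s_mono : Monotone s
  card_le : ∀ m, (fib m).card ≤ 2 * s m
  small : ∀ k, ∀ᶠ n in atTop, k * (∑ m ∈ Finset.range n, (fib m).card + 1) ≤ s n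

namespace Blocks

variable {G : Type*} (β : Blocks G)

open Classical in
/-- number of points in a block -/
noncomputable def cnt (a : Set G) (m : ℕ) : ℕ := ((β.fib m).filter fun x => x ∈ a).card

/-- density zero -/
def Null (a : Set G) : Prop := ∀ k, ∀ᶠ m in atTop, k * β.cnt a m ≤ β.s m

theorem cnt_mono {a b : Set G} (h : a ⊆ b) (m : ℕ) : β.cnt a m ≤ β.cnt b m := by
  classical
  unfold cnt
  exact Finset.card_le_card fun x hx => by
    simp only [Finset.mem_filter] at hx ⊢
    exact ⟨hx.1, h hx.2⟩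

theorem cnt_le_card (a : Set G) (m : ℕ) : β.cnt a m ≤ (β.fib m).card := by
  classical
  unfold cnt
  exact Finset.card_le_card fun x hx => (Finset.mem_filter.1 hx).1

theorem cnt_union (a b : Set G) (m : ℕ) : β.cnt (a ∪ b) m ≤ β.cnt a m + β.cnt b m := by
  classical
  unfold cnt
  refine le_trans (Finset.card_le_card fun x hx => ?_) (Finset.card_union_le _ _)
  simp only [Finset.mem_filter, Finset.mem_union, mem_union] at hx ⊢
  tauto

theorem cnt_congr {a b : Set G} {m : ℕ} (h : ∀ x, β.blk x = m → (x ∈ a ↔ x ∈ b)) :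
    β.cnt a m = β.cnt b m := by
  classical
  unfold cnt
  congr 1
  exact Finset.filter_congr fun x hx => h x ((β.mem_fib x m).1 hx)

theorem cnt_insert_ne (a : Set G) {x : G} {m : ℕ} (h : β.blk x ≠ m) :
    β.cnt (insert x a) m = β.cnt a m :=
  β.cnt_congr fun y hy => by
    have : y ≠ x := fun e => h (e ▸ hy)
    simp [this]

theorem cnt_insert_eq {a : Set G} {x : G} (h : x ∉ a) :
    β.cnt (insert x a) (β.blk x) = β.cnt a (β.blk x) + 1 := by
  classical
  unfold cnt
  rw [← Finset.card_insert_of_notMem (a := x) (by simp [h])]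
  congr 1
  ext y
  simp only [mem_insert_iff, Finset.mem_filter, Finset.mem_insert, β.mem_fib]
  constructor
  · tauto
  · rintro (rfl | h)
    · exact ⟨rfl, Or.inl rfl⟩
    · tauto

theorem cnt_insert_le (a : Set G) (x : G) (m : ℕ) : β.cnt (insert x a) m ≤ β.cnt a m + 1 := by
  by_cases hx : x ∈ a
  · rw [insert_eq_of_mem hx]; omega
  rcases eq_or_ne (β.blk x) m with rfl | h
  · exact (β.cnt_insert_eq hx).le
  · rw [β.cnt_insert_ne a h]; omega

theorem Null.mono {β : Blocks G} {a b : Set G} (hb : β.Null b) (h : a ⊆ b) : β.Null a :=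
  fun k => (hb k).mono fun m hm => (Nat.mul_le_mul_left k (β.cnt_mono h m)).trans hm

theorem Null.union {β : Blocks G} {a b : Set G} (ha : β.Null a) (hb : β.Null b) :
    β.Null (a ∪ b) := fun k => by
  filter_upwards [ha (2 * k), hb (2 * k)] with m h1 h2
  have := Nat.mul_le_mul_left k (β.cnt_union a b m)
  nlinarith

theorem null_singleton (x : G) : β.Null {x} := fun k => by
  filter_upwards [eventually_gt_atTop (β.blk x)] with m hm
  have : β.cnt {x} m = β.cnt ∅ m := β.cnt_congr fun y hy => by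
    have : y ≠ x := fun e => by subst e; omega
    simp [this]
  rw [this]
  simp [cnt]

/-- the filter of sets of density one -/
def filt : Filter G where
  sets := {S | β.Null Sᶜ}
  univ_sets := fun k => Eventually.of_forall fun m => by simp [cnt]
  sets_of_superset := fun h hst => Null.mono h (compl_subset_compl.2 hst)
  inter_sets := fun h1 h2 => by
    simp only [mem_ofPred_eq, compl_inter]
    exact Null.union h1 h2

theorem le_iff {A B : Set G} : Le β.filt A B ↔ β.Null (A \ B) := by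
  change β.Null {x | x ∈ A → x ∈ B}ᶜ ↔ _
  have : {x | x ∈ A → x ∈ B}ᶜ = A \ B := by
    ext x
    simp
  rw [this]

theorem eventually_ne (x : G) : ∀ᶠ y in β.filt, y ≠ x := by
  change β.Null {y | y ≠ x}ᶜ
  have : {y | y ≠ x}ᶜ = {x} := by
    ext y
    simp
  rw [this]
  exact β.null_singleton x

/-- largest future density -/
noncomputable def env (n : ℕ) (a : Set G) : ℕ :=
  ⨆ m, if n ≤ m then β.s n * β.cnt a m / β.s m else 0

theorem le_env {n m : ℕ} (h : n ≤ m) (a : Set G) : β.s n * β.cnt a m / β.s m ≤ β.env n a := by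
  have hb : BddAbove (range fun m => if n ≤ m then β.s n * β.cnt a m / β.s m else 0) := by
    refine ⟨2 * β.s n, ?_⟩
    rintro _ ⟨m, rfl⟩
    simp only
    split_ifs
    · refine Nat.div_le_of_le_mul ?_
      have := Nat.mul_le_mul_left (β.s n) ((β.cnt_le_card a m).trans (β.card_le m))
      nlinarith
    · exact Nat.zero_le _
  have := le_ciSup hb m
  rwa [if_pos h] at this

theorem env_le {n v : ℕ} {a : Set G} (h : ∀ m, n ≤ m → β.s n * β.cnt a m / β.s m ≤ v) :
    β.env n a ≤ v := by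
  refine ciSup_le fun m => ?_
  split_ifs with hm
  · exact h m hm
  · exact Nat.zero_le _

/-- old points plus largest future density -/
noncomputable def g (n : ℕ) (a : Set G) : ℕ := ∑ m ∈ Finset.range n, β.cnt a m + β.env n a

theorem g_mono (n : ℕ) {a b : Set G} (h : a ⊆ b) : β.g n a ≤ β.g n b :=
  add_le_add (Finset.sum_le_sum fun m _ => β.cnt_mono h m) (β.env_le fun m hm =>
    (Nat.div_le_div_right (Nat.mul_le_mul_left _ (β.cnt_mono h m))).trans (β.le_env hm b))

theorem g_insert_eq {n : ℕ} {a : Set G} {x : G} (hx : x ∉ a) (hn : β.blk x < n) :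
    β.g n (insert x a) = β.g n a + 1 := by
  have h1 : β.env n (insert x a) = β.env n a := by
    unfold env
    refine iSup_congr fun m => ?_
    split_ifs with hm
    · rw [β.cnt_insert_ne a (by omega)]
    · rfl
  have h2 : ∑ m ∈ Finset.range n, β.cnt (insert x a) m
      = ∑ m ∈ Finset.range n, (β.cnt a m + if β.blk x = m then 1 else 0) := by
    refine Finset.sum_congr rfl fun m _ => ?_
    split_ifs with hm
    · rw [← hm, β.cnt_insert_eq hx]
    · rw [β.cnt_insert_ne a hm, add_zero]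
  unfold g
  rw [h1, h2, Finset.sum_add_distrib, Finset.sum_ite_eq, if_pos (Finset.mem_range.2 hn)]
  ring

theorem g_insert_le (n : ℕ) (a : Set G) (x : G) : β.g n (insert x a) ≤ β.g n a + 1 := by
  by_cases hx : x ∈ a
  · rw [insert_eq_of_mem hx]; omega
  rcases lt_or_ge (β.blk x) n with hn | hn
  · exact (β.g_insert_eq hx hn).le
  have h1 : β.env n (insert x a) ≤ β.env n a + 1 := by
    refine β.env_le fun m hm => le_trans ?_ (Nat.add_le_add_right (β.le_env hm a) 1)
    rw [← Nat.add_div_right _ (β.s_pos m)]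
    refine Nat.div_le_div_right ?_
    have h3 := Nat.mul_le_mul_left (β.s n) (β.cnt_insert_le a x m)
    have h4 := β.s_mono hm
    nlinarith
  have h2 : ∑ m ∈ Finset.range n, β.cnt (insert x a) m = ∑ m ∈ Finset.range n, β.cnt a m :=
    Finset.sum_congr rfl fun m hm => β.cnt_insert_ne a (by have := Finset.mem_range.1 hm; omega)
  unfold g
  omega

theorem g_dep (n : ℕ) {a₀ : Set G} (h : β.Null a₀) : ∃ M, ∀ a a', a ⊆ a₀ → a' ⊆ a₀ →
    (∀ x, β.blk x < M → (x ∈ a ↔ x ∈ a')) → β.g n a = β.g n a' := by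
  obtain ⟨M, hM⟩ := eventually_atTop.1 (h (β.s n + 1))
  have hz : ∀ a ⊆ a₀, ∀ m, M ≤ m → β.s n * β.cnt a m / β.s m = 0 := by
    intro a ha m hm
    refine Nat.div_eq_of_lt ?_
    have h1 := hM m hm
    have h2 := β.cnt_mono ha m
    have h3 := β.s_pos m
    rcases Nat.eq_zero_or_pos (β.cnt a m) with h4 | h4
    · rw [h4]; omega
    · nlinarith
  refine ⟨max M n, fun a a' ha ha' hx => ?_⟩
  unfold g env
  congr 1
  · refine Finset.sum_congr rfl fun m hm => β.cnt_congr fun x hxm => hx x ?_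
    have := Finset.mem_range.1 hm
    omega
  · refine iSup_congr fun m => ?_
    rcases lt_or_ge m (max M n) with hm | hm
    · rw [β.cnt_congr fun x hxm => hx x (hxm ▸ hm)]
    · rw [hz a ha m (by omega), hz a' ha' m (by omega)]

theorem g_small {b : Set G} (h : β.Null b) (k : ℕ) : ∀ᶠ n in atTop, k * β.g n b ≤ β.s n := by
  obtain ⟨M, hM⟩ := eventually_atTop.1 (h (2 * k + 1))
  filter_upwards [β.small (2 * k), eventually_ge_atTop M] with n h1 hn
  have h2 : ∑ m ∈ Finset.range n, β.cnt b m ≤ ∑ m ∈ Finset.range n, (β.fib m).card :=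
    Finset.sum_le_sum fun m _ => β.cnt_le_card b m
  have h3 : β.env n b ≤ β.s n / (2 * k + 1) := by
    refine β.env_le fun m hm => ?_
    rw [Nat.le_div_iff_mul_le (by omega)]
    refine Nat.le_of_mul_le_mul_right ?_ (β.s_pos m)
    have h4 := Nat.div_mul_le_self (β.s n * β.cnt b m) (β.s m)
    have h5 := Nat.mul_le_mul_left (β.s n) (hM m (hn.trans hm))
    calc β.s n * β.cnt b m / β.s m * (2 * k + 1) * β.s m
        = β.s n * β.cnt b m / β.s m * β.s m * (2 * k + 1) := by ring
      _ ≤ β.s n * β.cnt b m * (2 * k + 1) := Nat.mul_le_mul_right _ h4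
      _ = β.s n * ((2 * k + 1) * β.cnt b m) := by ring
      _ ≤ β.s n * β.s m := h5
  have h4 := Nat.div_mul_le_self (β.s n) (2 * k + 1)
  unfold g
  have h5 := Nat.mul_le_mul_left (2 * k) h2
  have h6 := Nat.mul_le_mul_left (2 * k + 1) h3
  nlinarith

theorem exists_subset_cnt (L : Set G) (c : ℕ → ℕ) (hc : ∀ m, c m ≤ β.cnt L m) :
    ∃ a ⊆ L, ∀ m, β.cnt a m = c m := by
  classical
  have h : ∀ m, ∃ t ⊆ (β.fib m).filter fun x => x ∈ L, t.card = c m := fun m =>
    Finset.exists_subset_card_eq (by convert hc m using 1; unfold cnt; congr)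
  choose t ht1 ht2 using h
  refine ⟨{x | x ∈ t (β.blk x)}, fun x hx => (Finset.mem_filter.1 (ht1 _ hx)).2, fun m => ?_⟩
  rw [← ht2 m]
  unfold cnt
  congr 1
  ext x
  simp only [mem_ofPred_eq, Finset.mem_filter, β.mem_fib]
  constructor
  · rintro ⟨rfl, h⟩
    exact h
  · intro h
    have h1 := (β.mem_fib x m).1 (Finset.mem_filter.1 (ht1 m h)).1
    exact ⟨h1, h1 ▸ h⟩

/-- A set of positive upper density has null subsets that beat a given null set. -/
theorem beat {b L : Set G} (hb : β.Null b) (hL : ¬ β.Null L) :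
    ∃ a ⊆ L, β.Null a ∧ ∀ᶠ n in atTop, β.g n b ≤ β.g n a := by
  classical
  unfold Null at hL
  push Not at hL
  obtain ⟨k₀, hk₀⟩ := hL
  have hex : ∀ n, ∃ m, n ≤ m ∧ β.s m < k₀ * β.cnt L m := fun n => frequently_atTop.1 hk₀ n
  let μ : ℕ → ℕ := fun n => Nat.find (hex n)
  have hμ1 : ∀ n, n ≤ μ n := fun n => (Nat.find_spec (hex n)).1
  have hμ2 : ∀ n, β.s (μ n) < k₀ * β.cnt L (μ n) := fun n => (Nat.find_spec (hex n)).2
  have hμ3 : Monotone μ := fun n n' h => Nat.find_min' (hex n) ⟨h.trans (hμ1 n'), hμ2 n'⟩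
  let need : ℕ → ℕ := fun m =>
    ((Finset.range (m + 1)).filter fun n => μ n = m).sup fun n => β.g n b * β.s m / β.s n + 1
  obtain ⟨a, haL, ha⟩ := β.exists_subset_cnt L (fun m => min (need m) (β.cnt L m))
    fun m => min_le_right _ _
  refine ⟨a, haL, fun k => ?_, ?_⟩
  · obtain ⟨n₀, hn₀⟩ := eventually_atTop.1 ((β.g_small hb (2 * k)).and (β.small (2 * k)))
    filter_upwards [eventually_gt_atTop (μ n₀)] with m hm
    rw [ha m]
    refine (Nat.mul_le_mul_left k (min_le_left _ _)).trans ?_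
    rcases Nat.eq_zero_or_pos k with rfl | hk
    · simp
    rw [mul_comm, ← Nat.le_div_iff_mul_le hk]
    refine Finset.sup_le fun n hn => ?_
    obtain ⟨hn1, hn2⟩ := Finset.mem_filter.1 hn
    have hn3 : n₀ ≤ n := by
      by_contra hlt
      have := hμ3 (not_le.1 hlt).le
      omega
    rw [Nat.le_div_iff_mul_le hk]
    obtain ⟨h1, -⟩ := hn₀ n hn3
    obtain ⟨-, h2⟩ := hn₀ m (by have := hμ1 n; omega)
    have h3 : 2 * k * (β.g n b * β.s m / β.s n) ≤ β.s m := by
      refine Nat.le_of_mul_le_mul_right ?_ (β.s_pos n)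
      have h4 := Nat.div_mul_le_self (β.g n b * β.s m) (β.s n)
      calc 2 * k * (β.g n b * β.s m / β.s n) * β.s n
          = 2 * k * (β.g n b * β.s m / β.s n * β.s n) := by ring
        _ ≤ 2 * k * (β.g n b * β.s m) := Nat.mul_le_mul_left _ h4
        _ = 2 * k * β.g n b * β.s m := by ring
        _ ≤ β.s n * β.s m := Nat.mul_le_mul_right _ h1
        _ = β.s m * β.s n := by ring
    nlinarith [Nat.zero_le (2 * k * ∑ m ∈ Finset.range m, (β.fib m).card)]
  · filter_upwards [β.g_small hb k₀] with n hn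
    refine le_trans ?_ ((β.le_env (hμ1 n) a).trans (Nat.le_add_left _ _))
    rw [Nat.le_div_iff_mul_le (β.s_pos _), ha]
    rcases le_total (need (μ n)) (β.cnt L (μ n)) with h | h
    · rw [min_eq_left h]
      have h1 : β.g n b * β.s (μ n) / β.s n + 1 ≤ need (μ n) :=
        Finset.le_sup (f := fun n' => β.g n' b * β.s (μ n) / β.s n' + 1)
          (Finset.mem_filter.2 ⟨Finset.mem_range.2 (Nat.lt_succ_of_le (hμ1 n)), rfl⟩)
      have h2 := Nat.lt_mul_div_succ (β.g n b * β.s (μ n)) (β.s_pos n)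
      exact h2.le.trans (Nat.mul_le_mul_left _ h1)
    · rw [min_eq_right h]
      have h1 := hμ2 n
      calc β.g n b * β.s (μ n) ≤ β.g n b * (k₀ * β.cnt L (μ n)) := Nat.mul_le_mul_left _ h1.le
        _ = k₀ * β.g n b * β.cnt L (μ n) := by ring
        _ ≤ β.s n * β.cnt L (μ n) := Nat.mul_le_mul_right _ hn

/-- the level of `A` relative to `R` at time `n` -/
noncomputable def lev (R : Set G) (n : ℕ) (A : Set G) : ℤ :=
  (β.g n (A \ R) : ℤ) - β.g n (R \ A)

theorem lev_mono (R : Set G) (n : ℕ) {A B : Set G} (h : A ⊆ B) : β.lev R n A ≤ β.lev R n B := by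
  have h1 := β.g_mono n (sdiff_subset_sdiff_left (t := R) h)
  have h2 := β.g_mono n (sdiff_subset_sdiff_right (s := R) h)
  unfold lev
  omega

theorem lev_insert (R : Set G) (n : ℕ) (A : Set G) (x : G) :
    β.lev R n (insert x A) ≤ β.lev R n A + 1 ∧
      (x ∉ A → β.blk x < n → β.lev R n (insert x A) = β.lev R n A + 1) := by
  by_cases hxA : x ∈ A
  · rw [insert_eq_of_mem hxA]
    exact ⟨by omega, fun h => absurd hxA h⟩
  unfold lev
  by_cases hx : x ∈ R
  · have e1 : insert x A \ R = A \ R := insert_sdiff_of_mem A hx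
    have e2 : R \ A = insert x (R \ insert x A) := by
      ext y
      by_cases hy : y = x
      · simp [hy, hx, hxA]
      · simp [hy]
    rw [e1, e2]
    have h1 := β.g_insert_le n (R \ insert x A) x
    refine ⟨by omega, fun _ hn => ?_⟩
    have h2 := β.g_insert_eq (a := R \ insert x A) (by simp) hn
    omega
  · have e1 : insert x A \ R = insert x (A \ R) := insert_sdiff_of_notMem A hx
    have e2 : R \ insert x A = R \ A := by
      ext y
      by_cases hy : y = x
      · simp [hy, hx]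
      · simp [hy]
    rw [e1, e2]
    have h1 := β.g_insert_le n (A \ R) x
    refine ⟨by omega, fun _ hn => ?_⟩
    have h2 := β.g_insert_eq (a := A \ R) (fun h => hxA h.1) hn
    omega

theorem unif_lev (R : Set G) : Unif (fun A => ∀ᶠ n in atTop, β.lev R n A ≤ 0)
    (fun A => ∃ᶠ n in atTop, 0 ≤ β.lev R n A) where
  ind_mono := fun _ _ h hB => hB.mono fun n hn => (β.lev_mono R n h).trans hn
  sp_mono := fun _ _ h hA => hA.mono fun n hn => hn.trans (β.lev_mono R n h)
  step := fun A x hx => by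
    rw [not_frequently]
    refine eventually_congr ?_
    filter_upwards [eventually_gt_atTop (β.blk x)] with n hn
    rw [(β.lev_insert R n A x).2 hx hn]
    omega

theorem loc_lev (R : Set G) : Loc β.filt R (fun A => ∀ᶠ n in atTop, β.lev R n A ≤ 0)
    (fun A => ∃ᶠ n in atTop, 0 ≤ β.lev R n A) where
  toUnif := β.unif_lev R
  im := fun I X hIX h1 h2 hI hX => by
    classical
    refine greedy (β.lev R) (fun n A x => (β.lev_insert R n A x).1) (β.unif_lev R) I X hIX
      (fun n => ?_) hI hX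
    obtain ⟨M₁, hM₁⟩ := β.g_dep n (β.le_iff.1 h2)
    obtain ⟨M₂, hM₂⟩ := β.g_dep n (β.le_iff.1 h1)
    refine ⟨(Finset.range (max M₁ M₂)).biUnion β.fib, fun A A' h3 h4 h5 h6 h7 => ?_⟩
    have h8 : ∀ x, β.blk x < max M₁ M₂ → (x ∈ A ↔ x ∈ A') := fun x hx =>
      h7 x (Finset.mem_biUnion.2 ⟨_, Finset.mem_range.2 hx, (β.mem_fib x _).2 rfl⟩)
    unfold lev
    rw [hM₁ (A \ R) (A' \ R) (sdiff_subset_sdiff_left h4) (sdiff_subset_sdiff_left h6)
        fun x hx => by simp only [Set.mem_sdiff, h8 x (by omega)],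
      hM₂ (R \ A) (R \ A') (sdiff_subset_sdiff_right h3) (sdiff_subset_sdiff_right h5)
        fun x hx => by simp only [Set.mem_sdiff, h8 x (by omega)]]
  up := fun A X hAX h1 h2 h3 => by
    rw [β.le_iff] at h1 h2 h3
    obtain ⟨a, ha1, ha2, ha3⟩ := β.beat h1 h3
    refine ⟨A ∪ a, subset_union_left, union_subset hAX (ha1.trans sdiff_subset), ?_, ?_⟩
    · rw [β.le_iff]
      exact (h2.union ha2).mono fun x hx => hx.1.imp (fun h => ⟨h, hx.2⟩) id
    · refine (ha3.mono fun n hn => ?_).frequently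
      have h4 := β.g_mono n (show R \ (A ∪ a) ⊆ R \ A from fun x hx => ⟨hx.1, fun h => hx.2 (Or.inl h)⟩)
      have h5 := β.g_mono n (show a ⊆ (A ∪ a) \ R from fun x hx => ⟨Or.inr hx, (ha1 hx).2⟩)
      unfold lev
      omega
  down := fun I A hIA h1 h2 h3 => by
    rw [β.le_iff] at h1 h2 h3
    obtain ⟨b, hb1, hb2, hb3⟩ := β.beat h2 h3
    refine ⟨A \ b, fun x hx => ⟨hIA hx, fun h => (hb1 h).2 hx⟩, sdiff_subset, ?_, ?_⟩
    · rw [β.le_iff]
      refine (h1.union hb2).mono fun x hx => ?_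
      by_cases h : x ∈ b
      · exact Or.inr h
      · exact Or.inl ⟨hx.1, fun h' => hx.2 ⟨h', h⟩⟩
    · refine hb3.mono fun n hn => ?_
      have h4 := β.g_mono n (show (A \ b) \ R ⊆ A \ R from fun x hx => ⟨hx.1.1, hx.2⟩)
      have h5 := β.g_mono n (show b ⊆ R \ (A \ b) from fun x hx => ⟨(hb1 hx).1, fun h => h.2 hx⟩)
      unfold lev
      omega

end Blocks

end Crest.Agent.R53
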