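import Mathlib

/-!
Row 53: uniform systems, local rules on a class modulo a filter, and gluing them to an identically
self-dual uniform matroid.
-/

set_option autoImplicit false
open Filter Set

namespace Crest.Agent.R53

variable {G : Type*}

/-- almost inclusion modulo a filter -/
def Le (l : Filter G) (A B : Set G) : Prop := ∀ᶠ x in l, x ∈ A → x ∈ B

theorem Le.trans {l : Filter G} {A B C : Set G} (h : Le l A B) (h' : Le l B C) : Le l A C := by
  filter_upwards [h, h'] with x h1 h2 hx using h2 (h1 hx)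

theorem Le.of_subset {l : Filter G} {A B : Set G} (h : A ⊆ B) : Le l A B :=
  Eventually.of_forall fun _ hx => h hx

theorem Le.compl {l : Filter G} {A B : Set G} (h : Le l A B) : Le l Bᶜ Aᶜ := by
  filter_upwards [h] with x h1 hx hA using hx (h1 hA)

theorem le_compl_compl {l : Filter G} {A B : Set G} : Le l Bᶜ Aᶜ ↔ Le l A B :=
  ⟨fun h => by simpa using h.compl, Le.compl⟩

/-- independent and spanning sets of a uniform rule -/
structure Unif (Ind Sp : Set G → Prop) : Prop where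
  ind_mono : ∀ ⦃A B⦄, A ⊆ B → Ind B → Ind A
  sp_mono : ∀ ⦃A B⦄, A ⊆ B → Sp A → Sp B
  step : ∀ A x, x ∉ A → (Ind (insert x A) ↔ ¬ Sp A)

/-- a rule which works on the class of `R` -/
structure Loc (l : Filter G) (R : Set G) (Ind Sp : Set G → Prop) : Prop extends Unif Ind Sp where
  im : ∀ I X, I ⊆ X → Le l R I → Le l X R → Ind I → Sp X → ∃ B, I ⊆ B ∧ B ⊆ X ∧ Ind B ∧ Sp B
  up : ∀ A X, A ⊆ X → Le l R A → Le l A R → ¬ Le l X R →
    ∃ B, A ⊆ B ∧ B ⊆ X ∧ Le l B R ∧ Sp B
  down : ∀ I A, I ⊆ A → Le l R A → Le l A R → ¬ Le l R I →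
    ∃ B, I ⊆ B ∧ B ⊆ A ∧ Le l R B ∧ Ind B

theorem Unif.dual {Ind Sp : Set G → Prop} (h : Unif Ind Sp) :
    Unif (fun A => Sp Aᶜ) (fun A => Ind Aᶜ) where
  ind_mono := fun _ _ hAB hB => h.sp_mono (compl_subset_compl.2 hAB) hB
  sp_mono := fun _ _ hAB hA => h.ind_mono (compl_subset_compl.2 hAB) hA
  step := fun A x hx => by
    have h1 := h.step (insert x A)ᶜ x (by simp)
    have h2 : insert x (insert x A)ᶜ = Aᶜ := by
      ext y
      by_cases hy : y = x
      · simp [hy, hx]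
      · simp [hy]
    rw [h2] at h1
    tauto

theorem Loc.dual {l : Filter G} {R : Set G} {Ind Sp : Set G → Prop} (h : Loc l R Ind Sp) :
    Loc l Rᶜ (fun A => Sp Aᶜ) (fun A => Ind Aᶜ) where
  toUnif := h.toUnif.dual
  im := fun I X hIX h1 h2 hI hX => by
    obtain ⟨B, h3, h4, h5, h6⟩ := h.im Xᶜ Iᶜ (compl_subset_compl.2 hIX)
      (by simpa using h2.compl) (by simpa using h1.compl) hX hI
    exact ⟨Bᶜ, subset_compl_comm.1 h4, compl_subset_comm.1 h3, by simpa using h6,
      by simpa using h5⟩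
  up := fun A X hAX h1 h2 h3 => by
    obtain ⟨B, h4, h5, h6, h7⟩ := h.down Xᶜ Aᶜ (compl_subset_compl.2 hAX)
      (by simpa using h2.compl) (by simpa using h1.compl) (fun h => h3 (by simpa using h.compl))
    exact ⟨Bᶜ, subset_compl_comm.1 h5, compl_subset_comm.1 h4, h6.compl, by simpa using h7⟩
  down := fun I A hIA h1 h2 h3 => by
    obtain ⟨B, h4, h5, h6, h7⟩ := h.up Aᶜ Iᶜ (compl_subset_compl.2 hIA)
      (by simpa using h2.compl) (by simpa using h1.compl) (fun h => h3 (by simpa using h.compl))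
    exact ⟨Bᶜ, subset_compl_comm.1 h5, compl_subset_comm.1 h4, h6.compl, by simpa using h7⟩

/-- A self-dual uniform rule with the maximality property is an identically self-dual matroid. -/
theorem exists_matroid {Ind Sp : Set G → Prop} (h : Unif Ind Sp) (h0 : Ind ∅)
    (hd : ∀ A, Sp A ↔ Ind Aᶜ)
    (him : ∀ I X, I ⊆ X → Ind I → Sp X → ∃ B, I ⊆ B ∧ B ⊆ X ∧ Ind B ∧ Sp B) :
    ∃ M : Matroid G, M.E = univ ∧ M.dual = M ∧ ∀ A, M.Indep A ↔ Ind A := by
  have hu : Sp univ := (hd _).2 (by simpa using h0)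
  have hmax : ∀ B, Maximal Ind B ↔ Ind B ∧ Sp B := by
    intro B
    constructor
    · intro hB
      refine ⟨hB.1, ?_⟩
      by_contra hs
      have hne : B ≠ univ := fun e => hs (e ▸ hu)
      obtain ⟨x, hx⟩ := (ne_univ_iff_exists_notMem B).1 hne
      exact hx (hB.2 ((h.step B x hx).2 hs) (subset_insert x B) (mem_insert x B))
    · rintro ⟨h1, h2⟩
      refine ⟨h1, fun C hC hBC y hy => ?_⟩
      by_contra hn
      exact (h.step B y hn).1 (h.ind_mono (insert_subset hy hBC) hC) h2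
  have hor : ∀ A, ¬ Sp A → Ind A := by
    intro A hs
    have hne : A ≠ univ := fun e => hs (e ▸ hu)
    obtain ⟨x, hx⟩ := (ne_univ_iff_exists_notMem A).1 hne
    exact h.ind_mono (subset_insert x A) ((h.step A x hx).2 hs)
  let N : IndepMatroid G :=
    { E := univ
      Indep := Ind
      indep_empty := h0
      indep_subset := fun _ _ hJ hIJ => h.ind_mono hIJ hJ
      indep_aug := fun I B hI hn hB => by
        rw [hmax] at hn hB
        have hs : ¬ Sp I := fun hs => hn ⟨hI, hs⟩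
        have : ¬ B ⊆ I := fun hBI => hs (h.sp_mono hBI hB.2)
        obtain ⟨x, hxB, hxI⟩ := not_subset.1 this
        exact ⟨x, ⟨hxB, hxI⟩, (h.step I x hxI).2 hs⟩
      indep_maximal := fun X _ I hI hIX => by
        by_cases hX : Sp X
        · obtain ⟨B, h1, h2, h3, h4⟩ := him I X hIX hI hX
          exact ⟨B, h1, ⟨h3, h2⟩, fun C hC hBC => ((hmax B).2 ⟨h3, h4⟩).2 hC.1 hBC⟩
        · exact ⟨X, hIX, ⟨hor X hX, Subset.rfl⟩, fun C hC _ => hC.2⟩
      subset_ground := fun _ _ => subset_univ _ }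
  refine ⟨N.matroid, rfl, ?_, fun _ => Iff.rfl⟩
  refine Matroid.ext_isBase rfl fun B _ => ?_
  rw [Matroid.dual_isBase_iff (subset_univ B)]
  change Maximal Ind (univ \ B) ↔ Maximal Ind B
  rw [hmax, hmax, ← compl_eq_univ_sdiff, hd, hd, compl_compl, and_comm]

/-- Gluing local rules along an antichain of classes. -/
theorem glue (l : Filter G) (hfin : ∀ x, ∀ᶠ y in l, y ≠ x) {τ : Type*} (c : τ → τ)
    (rep : τ → Set G) (Ind Sp : τ → Set G → Prop) (hc : ∀ i, rep (c i) = (rep i)ᶜ)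
    (hci : ∀ i, c i ≠ i) (hd : ∀ i A, Ind (c i) A ↔ Sp i Aᶜ) (hd' : ∀ i A, Sp (c i) A ↔ Ind i Aᶜ)
    (hloc : ∀ i, Loc l (rep i) (Ind i) (Sp i))
    (hanti : ∀ i j, Le l (rep i) (rep j) → i = j)
    (him : ∀ I X i j, I ⊆ X → Le l I (rep i) → Le l (rep j) X →
      ∃ k, Le l I (rep k) ∧ Le l (rep k) X)
    (hcomp : ∀ A, ∃ i, Le l A (rep i) ∨ Le l (rep i) A) :
    ∃ M : Matroid G, M.E = univ ∧ M.dual = M ∧ ∀ A, M.Indep A → ∃ i, Le l A (rep i) := by
  let IndG : Set G → Prop := fun A => ∃ i, Le l A (rep i) ∧ (Le l (rep i) A → Ind i A)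
  let SpG : Set G → Prop := fun A => ∃ i, Le l (rep i) A ∧ (Le l A (rep i) → Sp i A)
  have hins : ∀ (A : Set G) x, Le l (insert x A) A := fun A x => by
    filter_upwards [hfin x] with y hy hyA using hyA.resolve_left hy
  have hU : Unif IndG SpG :=
    { ind_mono := by
        rintro A B hAB ⟨i, h1, h2⟩
        exact ⟨i, (Le.of_subset hAB).trans h1,
          fun h3 => (hloc i).ind_mono hAB (h2 (h3.trans (Le.of_subset hAB)))⟩
      sp_mono := by
        rintro A B hAB ⟨i, h1, h2⟩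
        exact ⟨i, h1.trans (Le.of_subset hAB),
          fun h3 => (hloc i).sp_mono hAB (h2 ((Le.of_subset hAB).trans h3))⟩
      step := by
        intro A x hx
        have hA : Le l A (insert x A) := Le.of_subset (subset_insert x A)
        constructor
        · rintro ⟨i, h1, h2⟩ ⟨j, h3, h4⟩
          obtain rfl : j = i := hanti _ _ ((h3.trans hA).trans h1)
          exact ((hloc j).step A x hx).1 (h2 (h3.trans hA)) (h4 (hA.trans h1))
        · intro hs
          obtain ⟨i, hi⟩ := hcomp A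
          by_cases h1 : Le l (rep i) A
          · have h2 : ¬ (Le l A (rep i) → Sp i A) := fun h2 => hs ⟨i, h1, h2⟩
            push Not at h2
            exact ⟨i, (hins A x).trans h2.1, fun _ => ((hloc i).step A x hx).2 h2.2⟩
          · exact ⟨i, (hins A x).trans (hi.resolve_right h1),
              fun h2 => absurd (h2.trans (hins A x)) h1⟩ }
  have h0 : IndG ∅ := by
    obtain ⟨i, -⟩ := hcomp ∅
    exact ⟨i, Le.of_subset (empty_subset _), fun h =>
      absurd (hanti i (c i) (h.trans (Le.of_subset (empty_subset _)))).symm (hci i)⟩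
  have hdG : ∀ A, SpG A ↔ IndG Aᶜ := by
    intro A
    constructor
    · rintro ⟨i, h1, h2⟩
      refine ⟨c i, by rw [hc]; exact h1.compl, fun h3 => ?_⟩
      rw [hd, compl_compl]
      rw [hc] at h3
      exact h2 (le_compl_compl.1 h3)
    · rintro ⟨i, h1, h2⟩
      refine ⟨c i, by rw [hc]; simpa using h1.compl, fun h3 => ?_⟩
      rw [hd']
      rw [hc] at h3
      exact h2 (by simpa using h3.compl)
  have himG : ∀ I X, I ⊆ X → IndG I → SpG X → ∃ B, I ⊆ B ∧ B ⊆ X ∧ IndG B ∧ SpG B := by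
    rintro I X hIX ⟨i, hi1, hi2⟩ ⟨j, hj1, hj2⟩
    obtain ⟨k, hk1, hk2⟩ := him I X i j hIX hi1 hj1
    have h1 : ∃ I', I ⊆ I' ∧ I' ⊆ X ∧ Le l (rep k) I' ∧ Le l I' (rep k) ∧ Ind k I' := by
      by_cases h : Le l (rep k) I
      · obtain rfl : k = i := hanti _ _ (h.trans hi1)
        exact ⟨I, Subset.rfl, hIX, h, hk1, hi2 h⟩
      · have hz : Le l ((rep k ∪ I) ∩ X) (rep k) := by
          filter_upwards [hk1] with x hx hx' using hx'.1.elim id hx
        obtain ⟨B, h2, h3, h4, h5⟩ := (hloc k).down I ((rep k ∪ I) ∩ X)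
          (subset_inter subset_union_right hIX)
          (by filter_upwards [hk2] with x hx hx' using ⟨Or.inl hx', hx hx'⟩) hz h
        exact ⟨B, h2, h3.trans inter_subset_right, h4, (Le.of_subset h3).trans hz, h5⟩
    obtain ⟨I', h1, h2, h3, h4, h5⟩ := h1
    have h6 : ∃ X', I' ⊆ X' ∧ X' ⊆ X ∧ Le l X' (rep k) ∧ Sp k X' := by
      by_cases h : Le l X (rep k)
      · obtain rfl : j = k := hanti _ _ (hj1.trans h)
        exact ⟨X, h2, Subset.rfl, h, hj2 h⟩
      · exact (hloc k).up I' X h2 h3 h4 h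
    obtain ⟨X', h6, h7, h8, h9⟩ := h6
    obtain ⟨B, hB1, hB2, hB3, hB4⟩ := (hloc k).im I' X' h6 h3 h8 h5 h9
    exact ⟨B, h1.trans hB1, hB2.trans h7, ⟨k, (Le.of_subset hB2).trans h8, fun _ => hB3⟩,
      ⟨k, h3.trans (Le.of_subset hB1), fun _ => hB4⟩⟩
  obtain ⟨M, h1, h2, h3⟩ := exists_matroid hU h0 hdG himG
  exact ⟨M, h1, h2, fun A hA => ((h3 A).1 hA).imp fun _ h => h.1⟩

end Crest.Agent.R53
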