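import Crest.Agent.R53.Glue

/-!
Row 53: the maximality property for rules of the form `limsup f n A ≤ 0`.
-/

set_option autoImplicit false
open Filter Set

namespace Crest.Agent.R53

variable {G : Type*}

theorem Unif.fin_between {Ind Sp : Set G → Prop} (h : Unif Ind Sp) (W : Finset G) :
    ∀ A : Set G, Ind A → Sp (A ∪ W) → ∃ B, A ⊆ B ∧ B ⊆ A ∪ W ∧ Ind B ∧ Sp B := by
  classical
  induction W using Finset.induction_on with
  | empty => exact fun A h1 h2 => ⟨A, Subset.rfl, subset_union_left, h1, by simpa using h2⟩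
  | insert w W _ ih =>
    intro A h1 h2
    by_cases hs : Sp A
    · exact ⟨A, Subset.rfl, subset_union_left, h1, hs⟩
    have h3 : Ind (insert w A) := by
      by_cases hw : w ∈ A
      · rwa [insert_eq_of_mem hw]
      · exact (h.step A w hw).2 hs
    have e : A ∪ ((insert w W : Finset G) : Set G) = insert w A ∪ W := by
      ext y
      simp only [Finset.coe_insert, mem_union, mem_insert_iff]
      tauto
    rw [e] at h2 ⊢
    obtain ⟨B, h4, h5, h6, h7⟩ := ih _ h3 h2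
    exact ⟨B, (subset_insert w A).trans h4, h5, h6, h7⟩

private theorem interp (f : ℕ → Set G → ℤ) (hlip : ∀ n A x, f n (insert x A) ≤ f n A + 1) (N : ℕ)
    (W : Finset G) : ∀ A : Set G, (∀ n, N ≤ n → f n A ≤ 0) → (∃ n, N ≤ n ∧ 0 < f n (A ∪ W)) →
      ∃ B, A ⊆ B ∧ B ⊆ A ∪ W ∧ (∀ n, N ≤ n → f n B ≤ 0) ∧ ∃ n, N ≤ n ∧ 0 ≤ f n B := by
  classical
  induction W using Finset.induction_on with
  | empty =>
    rintro A h1 ⟨n, hn, h2⟩
    have := h1 n hn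
    simp only [Finset.coe_empty, union_empty] at h2
    omega
  | insert w W _ ih =>
    intro A h1 h2
    by_cases hs : ∀ n, N ≤ n → f n (insert w A) ≤ 0
    · have e : A ∪ ((insert w W : Finset G) : Set G) = insert w A ∪ W := by
        ext y
        simp only [Finset.coe_insert, mem_union, mem_insert_iff]
        tauto
      rw [e] at h2 ⊢
      obtain ⟨B, h4, h5, h6⟩ := ih _ hs h2
      exact ⟨B, (subset_insert w A).trans h4, h5, h6⟩
    · push Not at hs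
      obtain ⟨n, hn, h3⟩ := hs
      have := hlip n A w
      exact ⟨A, Subset.rfl, subset_union_left, h1, n, hn, by omega⟩

theorem greedy (f : ℕ → Set G → ℤ) (hlip : ∀ n A x, f n (insert x A) ≤ f n A + 1)
    (hU : Unif (fun A => ∀ᶠ n in atTop, f n A ≤ 0) (fun A => ∃ᶠ n in atTop, 0 ≤ f n A))
    (I X : Set G) (hIX : I ⊆ X)
    (hdep : ∀ n, ∃ S : Finset G, ∀ A A', I ⊆ A → A ⊆ X → I ⊆ A' → A' ⊆ X →
      (∀ x ∈ S, x ∈ A ↔ x ∈ A') → f n A = f n A')
    (hI : ∀ᶠ n in atTop, f n I ≤ 0) (hX : ∃ᶠ n in atTop, 0 ≤ f n X) :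
    ∃ B, I ⊆ B ∧ B ⊆ X ∧ (∀ᶠ n in atTop, f n B ≤ 0) ∧ ∃ᶠ n in atTop, 0 ≤ f n B := by
  classical
  by_cases hZ : ∃ X', I ⊆ X' ∧ X' ⊆ X ∧ (X \ X').Finite ∧ ∀ᶠ n in atTop, f n X' ≤ 0
  · obtain ⟨X', h1, h2, h3, h4⟩ := hZ
    have e : X' ∪ (h3.toFinset : Set G) = X := by
      rw [Finite.coe_toFinset, union_sdiff_cancel h2]
    obtain ⟨B, h5, h6, h7, h8⟩ := hU.fin_between h3.toFinset X' h4 (by rw [e]; exact hX)
    exact ⟨B, h1.trans h5, e ▸ h6, h7, h8⟩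
  choose S hS using hdep
  let P : Set G × Set G × ℕ → Prop := fun s =>
    I ⊆ s.1 ∧ s.1 ⊆ s.2.1 ∧ s.2.1 ⊆ X ∧ (X \ s.2.1).Finite ∧ ∀ n, s.2.2 ≤ n → f n s.1 ≤ 0
  let r : Set G × Set G × ℕ → Set G × Set G × ℕ → Prop := fun s t =>
    s.1 ⊆ t.1 ∧ t.2.1 ⊆ s.2.1 ∧ s.2.2 < t.2.2 ∧ ∀ A, t.1 ⊆ A → A ⊆ t.2.1 →
      (∀ n, s.2.2 ≤ n → n < t.2.2 → f n A ≤ 0) ∧ ∃ n, s.2.2 ≤ n ∧ 0 ≤ f n A
  have hstep : ∀ s, P s → ∃ t, P t ∧ r s t := by
    rintro ⟨I₁, X₁, N⟩ ⟨h1, h2, h3, h4, h5⟩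
    simp only at h1 h2 h3 h4 h5
    have h6 : ¬ ∀ᶠ n in atTop, f n X₁ ≤ 0 := fun h => hZ ⟨X₁, h1.trans h2, h3, h4, h⟩
    rw [not_eventually] at h6
    obtain ⟨n₁, hn₁, hn₁'⟩ := frequently_atTop.1 h6 N
    let W : Finset G := (S n₁).filter fun x => x ∈ X₁
    have hW : I₁ ∪ W ⊆ X₁ := union_subset h2 fun x hx => (Finset.mem_filter.1 hx).2
    have h7 : f n₁ (I₁ ∪ W) = f n₁ X₁ := by
      refine hS n₁ _ _ (h1.trans subset_union_left) (hW.trans h3) (h1.trans h2) h3 fun x hx => ?_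
      exact ⟨fun h => hW h, fun h => Or.inr (Finset.mem_filter.2 ⟨hx, h⟩)⟩
    obtain ⟨B, hB1, hB2, hB3, n', hn', hB4⟩ := interp f hlip N W I₁ h5 ⟨n₁, hn₁, by omega⟩
    let T : Finset G := (Finset.range (n' + 1)).biUnion S
    let X₂ : Set G := B ∪ (X₁ \ T)
    have hX₂ : X₂ ⊆ X₁ := union_subset (hB2.trans hW) sdiff_subset
    have hag : ∀ A, B ⊆ A → A ⊆ X₂ → ∀ n, n < n' + 1 → f n A = f n B := by
      intro A hA1 hA2 n hn
      refine hS n _ _ ((h1.trans hB1).trans hA1) ((hA2.trans hX₂).trans h3) (h1.trans hB1)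
        ((hB2.trans hW).trans h3) fun x hx => ⟨fun h => ?_, fun h => hA1 h⟩
      rcases hA2 h with h' | h'
      · exact h'
      · exact absurd (Finset.mem_biUnion.2 ⟨n, Finset.mem_range.2 hn, hx⟩) h'.2
    refine ⟨(B, X₂, n' + 1), ⟨h1.trans hB1, subset_union_left, hX₂.trans h3, ?_,
      fun n hn => hB3 n (by simp only at hn; omega)⟩, hB1, hX₂, by simp only; omega,
      fun A hA1 hA2 => ⟨fun n hn hn2 => ?_, n', hn', ?_⟩⟩
    · refine (h4.union T.finite_toSet).subset fun x hx => ?_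
      by_cases hx1 : x ∈ X₁
      · right
        by_contra hT
        exact hx.2 (Or.inr ⟨hx1, hT⟩)
      · exact Or.inl ⟨hx.1, hx1⟩
    · rw [hag A hA1 hA2 n hn2]
      exact hB3 n hn
    · rw [hag A hA1 hA2 n' (Nat.lt_succ_self _)]
      exact hB4
  obtain ⟨N₀, hN₀⟩ := eventually_atTop.1 hI
  choose F hF1 hF2 using hstep
  let u : ℕ → {s // P s} := fun k =>
    Nat.rec (motive := fun _ => {s // P s})
      ⟨(I, X, N₀), Subset.rfl, hIX, Subset.rfl, by simp, fun n hn => hN₀ n hn⟩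
      (fun _ s => ⟨F s.1 s.2, hF1 s.1 s.2⟩) k
  have hu : ∀ k, r (u k).1 (u (k + 1)).1 := fun k => hF2 (u k).1 (u k).2
  have hm1 : Monotone fun k => (u k).1.1 := monotone_nat_of_le_succ fun k => (hu k).1
  have hm2 : Antitone fun k => (u k).1.2.1 := antitone_nat_of_succ_le fun k => (hu k).2.1
  have hm3 : StrictMono fun k => (u k).1.2.2 := strictMono_nat_of_lt_succ fun k => (hu k).2.2.1
  let B : Set G := ⋃ k, (u k).1.1
  have hB1 : ∀ k, (u k).1.1 ⊆ B := fun k => subset_iUnion (fun k => (u k).1.1) k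
  have hB2 : ∀ k, B ⊆ (u k).1.2.1 := fun k => iUnion_subset fun j =>
    ((hm1 (le_max_left j k)).trans (u (max j k)).2.2.1).trans (hm2 (le_max_right j k))
  refine ⟨B, hB1 0, hB2 0, eventually_atTop.2 ⟨N₀, fun n hn => ?_⟩, frequently_atTop.2 fun n => ?_⟩
  · have hex : ∃ k, n < (u (k + 1)).1.2.2 := ⟨n, hm3.le_apply (x := n + 1)⟩
    have h1 := Nat.find_spec hex
    have h2 : (u (Nat.find hex)).1.2.2 ≤ n := by
      rcases Nat.eq_zero_or_eq_succ_pred (Nat.find hex) with h0 | h0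
      · rw [h0]
        exact hn
      · have := Nat.find_min hex (m := (Nat.find hex).pred) (by rw [h0]; exact Nat.lt_succ_self _)
        rw [h0]
        exact not_lt.1 this
    exact ((hu (Nat.find hex)).2.2.2 B (hB1 (Nat.find hex + 1)) (hB2 (Nat.find hex + 1))).1 n h2 h1
  · obtain ⟨m, hm, h⟩ := ((hu n).2.2.2 B (hB1 (n + 1)) (hB2 (n + 1))).2
    exact ⟨m, (hm3.le_apply (x := n)).trans hm, h⟩

end Crest.Agent.R53
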