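import Crest.Agent.R53.Fine
import Crest.Agent.R53.Box

/-!
Row 53: concrete blocks with continuum many independent sets, and doubling.
-/

set_option autoImplicit false
open Filter Set Cardinal

namespace Crest.Agent.R53

namespace Blocks

variable {F : Type*} (β : Blocks F)

/-- two copies -/
def double (h : ∀ m, (β.fib m).card ≤ β.s m) : Blocks (Bool × F) where
  blk := fun x => β.blk x.2
  fib := fun m => Finset.univ ×ˢ β.fib m
  mem_fib := fun x m => by simp [β.mem_fib]
  s := β.s
  s_pos := β.s_pos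
  s_mono := β.s_mono
  card_le := fun m => by
    rw [Finset.card_product]
    simpa using h m
  small := fun k => (β.small (2 * k)).mono fun n hn => by
    simp only [Finset.card_product, Finset.card_univ, Fintype.card_bool]
    rw [← Finset.mul_sum]
    nlinarith

theorem cnt_double (h : ∀ m, (β.fib m).card ≤ β.s m) (a : Set (Bool × F)) (m : ℕ) :
    (β.double h).cnt a m = β.cnt {x | (false, x) ∈ a} m + β.cnt {x | (true, x) ∈ a} m := by
  classical
  unfold cnt
  simp only [double, Finset.card_filter, Finset.sum_product, Fintype.sum_bool]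
  rw [add_comm]
  congr 1

theorem null_double (h : ∀ m, (β.fib m).card ≤ β.s m) (a : Set (Bool × F)) :
    (β.double h).Null a ↔ β.Null {x | (false, x) ∈ a} ∧ β.Null {x | (true, x) ∈ a} := by
  constructor
  · intro h1
    constructor <;> intro k <;> filter_upwards [h1 k] with m hm <;>
      rw [cnt_double] at hm <;> exact le_trans (Nat.mul_le_mul_left k (by omega)) hm
  · rintro ⟨h1, h2⟩ k
    filter_upwards [h1 (2 * k), h2 (2 * k)] with m h3 h4
    rw [cnt_double]
    change _ ≤ β.s m
    nlinarith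

theorem le_double (h : ∀ m, (β.fib m).card ≤ β.s m) (A B : Set (Bool × F)) :
    Le (β.double h).filt A B ↔ Le β.filt {x | (false, x) ∈ A} {x | (false, x) ∈ B} ∧
      Le β.filt {x | (true, x) ∈ A} {x | (true, x) ∈ B} := by
  rw [le_iff, le_iff, le_iff, null_double]
  rfl

end Blocks

/-- the bundle -/
abbrev FF : Type := (m : ℕ) × ((Fin m → Bool) → Bool)

private theorem sum_pow_le (n : ℕ) : ∑ m ∈ Finset.range (n + 1), 2 ^ 2 ^ m ≤ 2 * 2 ^ 2 ^ n := by
  induction n with
  | zero => simp
  | succ n ih =>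
    rw [Finset.sum_range_succ]
    have h1 : 2 ^ 2 ^ (n + 1) = 2 ^ 2 ^ n * 2 ^ 2 ^ n := by rw [pow_succ, pow_mul, sq]
    have h2 : 2 ≤ 2 ^ 2 ^ n := Nat.le_self_pow (by positivity) 2
    nlinarith

private theorem card_fib (m : ℕ) :
    (Finset.univ.map (Function.Embedding.sigmaMk (β := fun m : ℕ => (Fin m → Bool) → Bool) m)).card
      = 2 ^ 2 ^ m := by
  simp

/-- the blocks of the bundle -/
def bl : Blocks FF where
  blk := fun x => x.1
  fib := fun m => Finset.univ.map (Function.Embedding.sigmaMk m)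
  mem_fib := fun x m => by
    obtain ⟨n, σ⟩ := x
    simp only [Finset.mem_map, Finset.mem_univ, true_and]
    constructor
    · rintro ⟨τ, h⟩
      exact (congrArg Sigma.fst h).symm
    · rintro rfl
      exact ⟨σ, rfl⟩
  s := fun m => 2 ^ 2 ^ m
  s_pos := fun m => by positivity
  s_mono := fun m n h => Nat.pow_le_pow_right two_pos (Nat.pow_le_pow_right two_pos h)
  card_le := fun m => by
    rw [card_fib]
    omega
  small := fun k => by
    filter_upwards [eventually_ge_atTop (3 * k + 1)] with n hn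
    obtain ⟨n, rfl⟩ : ∃ n', n = n' + 1 := ⟨n - 1, by omega⟩
    simp only [card_fib]
    have h1 : 2 ^ 2 ^ (n + 1) = 2 ^ 2 ^ n * 2 ^ 2 ^ n := by rw [pow_succ, pow_mul, sq]
    have h2 : n < 2 ^ n := Nat.lt_two_pow_self
    have h3 : 2 ^ n < 2 ^ 2 ^ n := Nat.lt_two_pow_self
    have h4 := sum_pow_le n
    have h5 : 3 * k ≤ 2 ^ 2 ^ n := by omega
    rw [h1]
    nlinarith

theorem bl_card (m : ℕ) : (bl.fib m).card ≤ bl.s m := (card_fib m).le

theorem bl_neBot : bl.filt.NeBot := by
  rw [neBot_iff, Ne, ← empty_mem_iff_bot]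
  intro h
  obtain ⟨m, hm⟩ := (h 2).exists
  have h1 : bl.cnt (∅ : Set FF)ᶜ m = bl.s m := by
    refine Eq.trans ?_ (card_fib m)
    unfold Blocks.cnt
    congr 1
    ext x
    simp [bl]
  have := bl.s_pos m
  omega

private def Yr (r : ℕ → Bool) (e : Bool) : Set FF := {x | x.2 (fun i => r i) = e}

private theorem cnt_inter (T : Finset (ℕ → Bool)) (e : (ℕ → Bool) → Bool) :
    ∀ᶠ m in atTop, 2 ^ T.card * bl.cnt (⋂ r ∈ T, Yr r (e r)) m ≤ bl.s m := by
  classical
  have hinj : ∀ᶠ m in atTop, ∀ r ∈ T, ∀ r' ∈ T,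
      (fun i : Fin m => r i) = (fun i : Fin m => r' i) → r = r' := by
    rw [eventually_all_finset]
    intro r _
    rw [eventually_all_finset]
    intro r' _
    by_cases h : r = r'
    · exact Eventually.of_forall fun _ _ => h
    · obtain ⟨j, hj⟩ := Function.ne_iff.1 h
      filter_upwards [eventually_gt_atTop j] with m hm h'
      exact absurd (congrFun h' ⟨j, hm⟩) hj
  filter_upwards [hinj] with m hm
  let t : (Fin m → Bool) → Finset Bool := fun v =>
    Finset.univ.filter fun b => ∀ r ∈ T, (fun i : Fin m => r i) = v → b = e r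
  let J : Finset (Fin m → Bool) := T.image fun r i => r i
  have hJ : J.card = T.card := Finset.card_image_of_injOn fun r hr r' hr' h => hm r hr r' hr' h
  have h1 : bl.cnt (⋂ r ∈ T, Yr r (e r)) m ≤ (Fintype.piFinset t).card := by
    unfold Blocks.cnt
    rw [← Finset.card_map (Function.Embedding.sigmaMk (β := fun m : ℕ => (Fin m → Bool) → Bool) m)]
    refine Finset.card_le_card fun x hx => ?_
    obtain ⟨hx1, hx2⟩ := Finset.mem_filter.1 hx
    obtain ⟨σ, -, rfl⟩ := Finset.mem_map.1 hx1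
    refine Finset.mem_map.2 ⟨σ, Fintype.mem_piFinset.2 fun v => ?_, rfl⟩
    refine Finset.mem_filter.2 ⟨Finset.mem_univ _, fun r hr hv => ?_⟩
    rw [← hv]
    exact mem_iInter₂.1 hx2 r hr
  have h2 : 2 ^ T.card = ∏ v : Fin m → Bool, if v ∈ J then 2 else 1 := by
    rw [Finset.prod_ite_mem, Finset.univ_inter, Finset.prod_const, hJ]
  have h3 : bl.s m = ∏ _v : Fin m → Bool, 2 := by
    simp [bl]
  refine (Nat.mul_le_mul_left _ h1).trans ?_
  rw [Fintype.card_piFinset, h2, h3, ← Finset.prod_mul_distrib]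
  refine Finset.prod_le_prod' fun v _ => ?_
  split_ifs with hv
  · obtain ⟨r, hr, hrv⟩ := Finset.mem_image.1 hv
    have : (t v).card ≤ 1 := Finset.card_le_one.2 fun a ha b hb =>
      ((Finset.mem_filter.1 ha).2 r hr hrv).trans ((Finset.mem_filter.1 hb).2 r hr hrv).symm
    omega
  · have : (t v).card ≤ 2 := (Finset.card_le_univ _).trans (by simp)
    omega

private theorem bad_finite (P : Set FF) (hP : ¬ Le bl.filt P ∅) :
    {r : ℕ → Bool | ∃ e, Le bl.filt P (Yr r e)}.Finite := by
  by_contra hinf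
  rw [bl.le_iff, sdiff_empty] at hP
  refine hP fun k => ?_
  obtain ⟨T, hT1, hT2⟩ := Set.Infinite.exists_subset_card_eq hinf (2 * k)
  have he : ∀ r, ∃ e, r ∈ T → Le bl.filt P (Yr r e) := fun r => by
    by_cases hr : r ∈ T
    · obtain ⟨e, he⟩ := hT1 hr
      exact ⟨e, fun _ => he⟩
    · exact ⟨true, fun h => absurd h hr⟩
  choose e he using he
  have h1 : Le bl.filt P (⋂ r ∈ T, Yr r (e r)) := by
    have := (eventually_all_finset T).2 fun r hr => he r hr
    filter_upwards [this] with x hx hxP using mem_iInter₂.2 fun r hr => hx r hr hxP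
  filter_upwards [bl.le_iff.1 h1 (2 * k), cnt_inter T e] with m h2 h3
  have h4 := (bl.cnt_mono (subset_sdiff_union P (⋂ r ∈ T, Yr r (e r))) m).trans (bl.cnt_union _ _ m)
  have h5 : 2 * k ≤ 2 ^ T.card := hT2 ▸ Nat.lt_two_pow_self.le
  have h6 := Nat.mul_le_mul_right (bl.cnt (⋂ r ∈ T, Yr r (e r)) m) h5
  have h7 := Nat.mul_le_mul_left (2 * k) h4
  nlinarith

theorem bl_splits : Splits bl.filt := by
  intro S hS
  let bad : Set FF → Set (ℕ → Bool) := fun P =>
    {r | ¬ Le bl.filt P ∅ ∧ ∃ e, Le bl.filt P (Yr r e)}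
  have hb : ∀ P, (bad P).Finite := fun P => by
    by_cases hP : Le bl.filt P ∅
    · exact finite_empty.subset fun r hr => hr.1 hP
    · exact (bad_finite P hP).subset fun r hr => hr.2
  have h1 : #(⋃ P ∈ S, bad P) < 𝔠 :=
    (mk_biUnion_le bad S).trans_lt (mul_lt_of_lt aleph0_le_continuum hS
      (lt_of_le_of_lt (ciSup_le' fun P => (hb P).lt_aleph0.le) aleph0_lt_continuum))
  have h2 : (⋃ P ∈ S, bad P) ≠ Set.univ := by
    intro h
    rw [h, mk_univ] at h1
    simp at h1
  obtain ⟨r, hr⟩ := (ne_univ_iff_exists_notMem _).1 h2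
  refine ⟨Yr r true, fun P hP hpos => ⟨fun h => hr (mem_biUnion hP ⟨hpos, false, ?_⟩),
    fun h => hr (mem_biUnion hP ⟨hpos, true, ?_⟩)⟩⟩
  · filter_upwards [h] with x hx hxP
    exact Bool.eq_false_iff.2 fun h' => hx ⟨hxP, h'⟩
  · filter_upwards [h] with x hx hxP
    by_contra h'
    exact hx ⟨hxP, h'⟩

end Crest.Agent.R53
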