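import Crest.Agent.R53.Split

/-!
Row 53: the identically self-dual uniform matroid on two bundles without infinite chains.
-/

set_option autoImplicit false
open Filter Set

namespace Crest.Agent.R53

private def RR (p q : Set FF) : Set (Bool × FF) := {x | cond x.1 (x.2 ∉ q) (x.2 ∈ p)}

theorem exists_vertex : ∃ (N : Matroid (Bool × FF)) (U : Ultrafilter FF),
    N.E = univ ∧ N.dual = N ∧ ∀ A : ℕ → Set (Bool × FF), (∀ k, N.Indep (A k)) →
      {x | (false, x) ∈ A 0} ∈ U → (∀ k x, (true, x) ∈ A k ∨ (false, x) ∈ A (k + 1)) → False := by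
  have := bl_neBot
  let U : Ultrafilter FF := Ultrafilter.of bl.filt
  have hU : (U : Filter FF) ≤ bl.filt := Ultrafilter.of_le _
  obtain ⟨W, _, _, T, hsm, hanti, hlink, hbox⟩ := exists_ties hU bl_splits
  let β := bl.double bl_card
  have hle := bl.le_double bl_card
  have le1 : ∀ A p q, Le β.filt A (RR p q) ↔
      Le bl.filt {x | (false, x) ∈ A} p ∧ Le bl.filt q {x | (true, x) ∈ A}ᶜ := fun A p q =>
    (hle _ _).trans (and_congr Iff.rfl
      ⟨fun h => by simpa using Le.compl (B := qᶜ) h,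
        fun h => show Le bl.filt _ qᶜ by simpa using h.compl⟩)
  have le2 : ∀ A p q, Le β.filt (RR p q) A ↔
      Le bl.filt p {x | (false, x) ∈ A} ∧ Le bl.filt {x | (true, x) ∈ A}ᶜ q := fun A p q =>
    (hle _ _).trans (and_congr Iff.rfl
      ⟨fun h => by simpa using Le.compl (A := qᶜ) h,
        fun h => show Le bl.filt qᶜ _ by simpa using h.compl⟩)
  have le3 : ∀ A p q, Le β.filt A (RR p q)ᶜ ↔
      Le bl.filt p {x | (false, x) ∈ A}ᶜ ∧ Le bl.filt {x | (true, x) ∈ A} q := fun A p q => by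
    rw [← le_compl_compl, compl_compl, le2]
    exact and_congr Iff.rfl (iff_of_eq (congrArg (fun s => Le bl.filt s q) (compl_compl _)))
  have le4 : ∀ A p q, Le β.filt (RR p q)ᶜ A ↔
      Le bl.filt {x | (false, x) ∈ A}ᶜ p ∧ Le bl.filt q {x | (true, x) ∈ A} := fun A p q => by
    rw [← le_compl_compl, compl_compl, le1]
    exact and_congr Iff.rfl (iff_of_eq (congrArg (fun s => Le bl.filt q s) (compl_compl _)))
  have anti : ∀ t ∈ T, ∀ t' ∈ T, Le β.filt (RR t.1 t.2.1) (RR t'.1 t'.2.1) → t = t' := by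
    intro t ht t' ht' h
    rw [le1] at h
    exact hanti t ht t' ht' h.1 (h.2.trans (Le.of_subset fun x hx => not_not.1 hx))
  have key : ∀ I X : Set (Bool × FF), I ⊆ X → {x | (false, x) ∈ I} ∉ U → {x | (true, x) ∈ X} ∈ U →
      ({x | (true, x) ∈ I} ∉ U ∨ ∃ t ∈ T, Le β.filt I (RR t.1 t.2.1)) →
      ({x | (false, x) ∈ X} ∈ U ∨ ∃ t ∈ T, Le β.filt (RR t.1 t.2.1) X) →
      ∃ t ∈ T, Le β.filt I (RR t.1 t.2.1) ∧ Le β.filt (RR t.1 t.2.1) X := by
    intro I X hIX h1 h2 h3 h4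
    rcases hbox {x | (false, x) ∈ I} {x | (false, x) ∈ X} {x | (true, x) ∈ X}ᶜ
      {x | (true, x) ∈ I}ᶜ (fun x hx => hIX hx) (fun x hx h => hx (hIX h)) h1
      (Ultrafilter.compl_notMem_iff.2 h2) with ⟨t, ht, h⟩ | ⟨t, ht, h⟩ | ⟨t, ht, h⟩
    · rcases h3 with h3 | ⟨t', ht', h3⟩
      · exact absurd (h.2.mem hU (Ultrafilter.compl_mem_iff_notMem.2 h3)) (hsm t ht).2
      · obtain rfl := anti t ht t' ht' (((le2 _ _ _).2 h).trans h3)
        exact ⟨t, ht, h3, ((le2 _ _ _).2 h).trans (Le.of_subset hIX)⟩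
    · rcases h4 with h4 | ⟨t', ht', h4⟩
      · exact absurd (h.1.mem hU h4) (hsm t ht).1
      · obtain rfl := anti t' ht' t ht (h4.trans ((le1 _ _ _).2 h))
        exact ⟨t', ht, (Le.of_subset hIX).trans ((le1 _ _ _).2 h), h4⟩
    · exact ⟨t, ht, (le1 _ _ _).2 ⟨h.1, h.2.2.2⟩, (le2 _ _ _).2 ⟨h.2.1, h.2.2.1⟩⟩
  let rep : T × Bool → Set (Bool × FF) := fun i =>
    cond i.2 (RR i.1.1.1 i.1.1.2.1)ᶜ (RR i.1.1.1 i.1.1.2.1)
  let I0 : T → Set (Bool × FF) → Prop := fun t A =>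
    ∀ᶠ n in atTop, β.lev (RR t.1.1 t.1.2.1) n A ≤ 0
  let S0 : T → Set (Bool × FF) → Prop := fun t A =>
    ∃ᶠ n in atTop, 0 ≤ β.lev (RR t.1.1 t.1.2.1) n A
  -- small sets below, large sets above
  have below : ∀ (A : Set (Bool × FF)) (i : T × Bool), Le β.filt A (rep i) →
      ({x | (true, x) ∈ A} ∉ U ∨ ∃ t ∈ T, Le β.filt A (RR t.1 t.2.1)) ∧
      ({x | (false, x) ∈ A} ∉ U ∨ ∃ t ∈ T, Le β.filt (RR t.1 t.2.1) Aᶜ) ∧
      ({x | (false, x) ∈ A} ∉ U ∨ {x | (true, x) ∈ A} ∉ U) := by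
    rintro A ⟨⟨t, ht⟩, _ | _⟩ h
    · have h1 : {x | (false, x) ∈ A} ∉ U := fun h1 =>
        (hsm t ht).1 (((le1 _ _ _).1 h).1.mem hU h1)
      exact ⟨Or.inr ⟨t, ht, h⟩, Or.inl h1, Or.inl h1⟩
    · have h1 : {x | (true, x) ∈ A} ∉ U := fun h1 =>
        (hsm t ht).2 (((le3 _ _ _).1 h).2.mem hU h1)
      exact ⟨Or.inl h1, Or.inr ⟨t, ht, by simpa [rep] using Le.compl h⟩, Or.inr h1⟩
  have hrc : ∀ i : T × Bool, rep (i.1, !i.2) = (rep i)ᶜ := by
    rintro ⟨t, _ | _⟩ <;> simp [rep]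
  obtain ⟨N, hN1, hN2, hN3⟩ := glue β.filt β.eventually_ne (τ := T × Bool) (fun i => (i.1, !i.2))
    rep (fun i => cond i.2 (fun A => S0 i.1 Aᶜ) (I0 i.1))
    (fun i => cond i.2 (fun A => I0 i.1 Aᶜ) (S0 i.1)) hrc
    (by rintro ⟨t, _ | _⟩ <;> simp) (by rintro ⟨t, _ | _⟩ A <;> simp)
    (by rintro ⟨t, _ | _⟩ A <;> simp)
    (by
      rintro ⟨t, _ | _⟩
      · exact β.loc_lev _
      · exact (β.loc_lev _).dual)
    (by
      rintro ⟨⟨t, ht⟩, _ | _⟩ ⟨⟨t', ht'⟩, _ | _⟩ h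
      · obtain rfl := anti t ht t' ht' h
        rfl
      · exact absurd (((le3 _ _ _).1 h).2.mem hU (Ultrafilter.compl_mem_iff_notMem.2 (hsm t ht).2))
          (hsm t' ht').2
      · exact absurd (((le1 _ _ _).1 h).1.mem hU (Ultrafilter.compl_mem_iff_notMem.2 (hsm t ht).1))
          (hsm t' ht').1
      · obtain rfl := anti t' ht' t ht (le_compl_compl.1 h)
        rfl)
    (by
      intro I X i j hIX h1 h2
      obtain ⟨a1, a2, a3⟩ := below I i h1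
      obtain ⟨b1, b2, b3⟩ := below Xᶜ (j.1, !j.2) (by rw [hrc]; exact h2.compl)
      have c0 : {x | (false, x) ∈ Xᶜ} ∉ U ↔ {x | (false, x) ∈ X} ∈ U :=
        Ultrafilter.compl_notMem_iff (s := {x | (false, x) ∈ X})
      have c1 : {x | (true, x) ∈ Xᶜ} ∉ U ↔ {x | (true, x) ∈ X} ∈ U :=
        Ultrafilter.compl_notMem_iff (s := {x | (true, x) ∈ X})
      have d0 : {x | (false, x) ∈ Iᶜ} ∈ U ↔ {x | (false, x) ∈ I} ∉ U :=
        Ultrafilter.compl_mem_iff_notMem (s := {x | (false, x) ∈ I})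
      have d1 : {x | (true, x) ∈ Iᶜ} ∈ U ↔ {x | (true, x) ∈ I} ∉ U :=
        Ultrafilter.compl_mem_iff_notMem (s := {x | (true, x) ∈ I})
      rw [compl_compl] at b2
      by_cases h : {x | (false, x) ∈ I} ∉ U ∧ {x | (true, x) ∈ X} ∈ U
      · obtain ⟨t, ht, h3⟩ := key I X hIX h.1 h.2 a1 (b2.imp_left c0.1)
        exact ⟨(⟨t, ht⟩, false), h3⟩
      · have m0 : {x | (false, x) ∈ I} ∈ U → {x | (false, x) ∈ X} ∈ U := fun h =>
          mem_of_superset h fun x hx => hIX hx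
        have m1 : {x | (true, x) ∈ I} ∈ U → {x | (true, x) ∈ X} ∈ U := fun h =>
          mem_of_superset h fun x hx => hIX hx
        have e : {x | (false, x) ∈ X} ∈ U ∧ {x | (true, x) ∈ I} ∉ U := by
          by_cases h5 : {x | (false, x) ∈ I} ∈ U
          · exact ⟨m0 h5, a3.resolve_left (not_not.2 h5)⟩
          · have h6 : {x | (true, x) ∈ X} ∉ U := fun h6 => h ⟨h5, h6⟩
            exact ⟨c0.1 (b3.resolve_right fun h7 => h6 (c1.1 h7)), fun h7 => h6 (m1 h7)⟩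
        obtain ⟨t, ht, h3⟩ := key Xᶜ Iᶜ (compl_subset_compl.2 hIX) (c0.2 e.1) (d1.2 e.2) b1
          (a2.imp_left d0.2)
        exact ⟨(⟨t, ht⟩, true), by simpa [rep] using h3.2.compl, by simpa [rep] using h3.1.compl⟩)
    (by
      have sub : ∀ A : Set (Bool × FF), {x | (false, x) ∈ A} ∉ U →
          ∃ t ∈ T, Le β.filt A (RR t.1 t.2.1) ∨ Le β.filt (RR t.1 t.2.1) A := by
        intro A h0
        by_cases h1 : {x | (true, x) ∈ A} ∈ U
        · rcases hbox {x | (false, x) ∈ A} {x | (false, x) ∈ A} {x | (true, x) ∈ A}ᶜ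
            {x | (true, x) ∈ A}ᶜ Subset.rfl Subset.rfl h0
            (Ultrafilter.compl_notMem_iff.2 h1) with ⟨t, ht, h⟩ | ⟨t, ht, h⟩ | ⟨t, ht, h⟩
          · exact ⟨t, ht, Or.inr ((le2 _ _ _).2 h)⟩
          · exact ⟨t, ht, Or.inl ((le1 _ _ _).2 h)⟩
          · exact ⟨t, ht, Or.inl ((le1 _ _ _).2 ⟨h.1, h.2.2.2⟩)⟩
        · obtain ⟨t, ht, h⟩ := key A univ (subset_univ A) h0 univ_mem (Or.inl h1) (Or.inl univ_mem)
          exact ⟨t, ht, Or.inl h.1⟩
      intro A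
      by_cases h0 : {x | (false, x) ∈ A} ∈ U
      · obtain ⟨t, ht, h⟩ := sub Aᶜ
          ((Ultrafilter.compl_notMem_iff (s := {x | (false, x) ∈ A})).2 h0)
        refine ⟨(⟨t, ht⟩, true), h.symm.imp (fun h => ?_) fun h => ?_⟩
        · simpa [rep] using h.compl
        · simpa [rep] using h.compl
      · obtain ⟨t, ht, h⟩ := sub A h0
        exact ⟨(⟨t, ht⟩, false), h⟩)
  refine ⟨N, U, hN1, hN2, fun A hA h0 hcov => ?_⟩
  have step : ∀ k, {x | (false, x) ∈ A k} ∈ U → ∃ t ∈ T,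
      Le bl.filt t.1 {x | (false, x) ∈ A k}ᶜ ∧ Le bl.filt {x | (true, x) ∈ A k} t.2.1 := by
    intro k hk
    obtain ⟨⟨⟨t, ht⟩, _ | _⟩, h⟩ := hN3 _ (hA k)
    · exact absurd (((le1 _ _ _).1 h).1.mem hU hk) (hsm t ht).1
    · exact ⟨t, ht, (le3 _ _ _).1 h⟩
  have large : ∀ k, {x | (false, x) ∈ A k} ∈ U := by
    intro k
    induction k with
    | zero => exact h0
    | succ k ih =>
      obtain ⟨t, ht, -, h⟩ := step k ih
      by_contra hn
      refine (hsm t ht).2 (h.mem hU (mem_of_superset (Ultrafilter.compl_mem_iff_notMem.2 hn) ?_))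
      exact fun x hx => (hcov k x).resolve_right hx
  choose t ht h1 h2 using fun k => step k (large k)
  have hlt : ∀ k, (t (k + 1)).2.2 < (t k).2.2 := fun k =>
    hlink _ (ht k) _ (ht (k + 1)) (((h1 (k + 1)).trans
      (Le.of_subset fun x hx => (hcov k x).resolve_right hx)).trans (h2 k))
  exact not_strictAnti_of_wellFoundedLT (fun k => (t k).2.2) (strictAnti_nat_of_succ_lt hlt)

end Crest.Agent.R53
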